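import Vale.Agent.P086.Defs

/-! Basic facts and working definitions for P086. -/

namespace Vale.Agent.P086

open scoped InnerProductSpace ComplexConjugate

noncomputable section

section basis
variable {α β γ : Type*}

open Classical in
/-- Point masses. -/
def dl (a : α) : L2 α := lp.single 2 a 1

@[simp] lemma pull_apply (e : β ≃ α) (ξ : L2 α) (b : β) : pull e ξ b = ξ (e b) := rfl

lemma norm_pull (e : β ≃ α) (ξ : L2 α) : ‖pull e ξ‖ = ‖ξ‖ := norm_pullₗ e ξ

open Classical in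
lemma dl_apply (a b : α) : dl a b = if b = a then 1 else 0 := by
  simp [dl, lp.single_apply, Pi.single_apply]

lemma inner_dl (a : α) (ξ : L2 α) : ⟪dl a, ξ⟫_ℂ = ξ a := by
  classical
  simp [dl, lp.inner_single_left]

lemma pull_dl (e : β ≃ α) (a : α) : pull e (dl a) = dl (e.symm a) := by
  ext b
  rw [pull_apply, dl_apply, dl_apply]
  classical exact if_congr e.eq_symm_apply.symm rfl rfl

lemma orthonormal_dl : Orthonormal ℂ (dl : α → L2 α) := by
  classical
  rw [orthonormal_iff_ite]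
  intro a b
  rw [inner_dl, dl_apply]

lemma norm_dl (a : α) : ‖dl a‖ = 1 := orthonormal_dl.1 a

lemma hasSum_dl (ξ : L2 α) : HasSum (fun a => ξ a • dl a) ξ := by
  classical
  have := lp.hasSum_single (E := fun _ : α => ℂ) (p := 2) (by norm_num) ξ
  have e : ∀ a, ξ a • dl a = lp.single 2 a (ξ a) := fun a => by
    rw [dl, ← lp.single_smul]; simp
  simpa only [e] using this

lemma dense_span_dl : Dense (Submodule.span ℂ (Set.range (dl : α → L2 α)) : Set (L2 α)) :=
  fun ξ => mem_closure_of_tendsto (hasSum_dl ξ) (Filter.Eventually.of_forall fun _ =>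
    Submodule.sum_mem _ fun a _ => Submodule.smul_mem _ _ (Submodule.subset_span ⟨a, rfl⟩))

lemma ext_dl {E : Type*} [NormedAddCommGroup E] [NormedSpace ℂ E] {S T : L2 α →L[ℂ] E}
    (h : ∀ a, S (dl a) = T (dl a)) : S = T :=
  ContinuousLinearMap.ext_on dense_span_dl (by rintro _ ⟨a, rfl⟩; exact h a)

lemma exists_isometry {E : Type*} [NormedAddCommGroup E] [InnerProductSpace ℂ E]
    [CompleteSpace E] {v : α → E} (hv : Orthonormal ℂ v) :
    ∃ W : L2 α →ₗᵢ[ℂ] E, ∀ a, W (dl a) = v a := by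
  classical
  refine ⟨hv.orthogonalFamily.linearIsometry, fun a => ?_⟩
  rw [dl, OrthogonalFamily.linearIsometry_apply_single]
  simp

end basis

section group
variable {G : Type*} [Group G]

/-- The right regular representation. -/
def rho (g : G) : L2 G →L[ℂ] L2 G := pull (Equiv.mulRight g)

lemma lam_dl (g h : G) : lam g (dl h) = dl (g * h) := by simp [lam, pull_dl]

lemma rho_dl (g h : G) : rho g (dl h) = dl (h * g⁻¹) := by simp [rho, pull_dl]

lemma lam_mul (g h : G) : lam (g * h) = lam g * lam h := ext_dl fun a => by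
  simp [lam_dl, mul_assoc]

lemma lam_one : lam (1 : G) = 1 := ext_dl fun a => by simp [lam_dl]

lemma norm_lam_apply (g : G) (ξ : L2 G) : ‖lam g ξ‖ = ‖ξ‖ := norm_pull _ _

lemma norm_rho_apply (g : G) (ξ : L2 G) : ‖rho g ξ‖ = ‖ξ‖ := norm_pull _ _

lemma star_pull (e : G ≃ G) : star (pull e) = pull e.symm := ext_dl fun a => by
  ext b
  rw [← inner_dl, ContinuousLinearMap.star_eq_adjoint, ContinuousLinearMap.adjoint_inner_right,
    pull_dl, pull_dl, inner_dl, dl_apply, dl_apply]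
  classical exact if_congr e.symm_apply_eq rfl rfl

lemma star_lam (g : G) : star (lam g) = lam g⁻¹ := by simp [lam, star_pull]

lemma star_rho (g : G) : star (rho g) = rho g⁻¹ := by simp [rho, star_pull]

lemma lam_unitary (g : G) : lam g ∈ unitary (L2 G →L[ℂ] L2 G) :=
  ⟨by rw [star_lam, ← lam_mul, inv_mul_cancel, lam_one],
    by rw [star_lam, ← lam_mul, mul_inv_cancel, lam_one]⟩

/-- `lam` as a homomorphism. -/
def lamH : G →* (L2 G →L[ℂ] L2 G) := ⟨⟨lam, lam_one⟩, lam_mul⟩

lemma mem_comm {T : L2 G →L[ℂ] L2 G} :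
    T ∈ StarSubalgebra.centralizer ℂ (Set.range (lam (G := G))) ↔ ∀ g, lam g * T = T * lam g := by
  rw [StarSubalgebra.mem_centralizer_iff]
  exact ⟨fun h g => (h _ ⟨g, rfl⟩).1, by
    rintro h _ ⟨g, rfl⟩; exact ⟨h g, by rw [star_lam]; exact h _⟩⟩

lemma mem_L {x : L2 G →L[ℂ] L2 G} :
    x ∈ L G ↔ ∀ T : L2 G →L[ℂ] L2 G, (∀ g, lam g * T = T * lam g) → T * x = x * T := by
  rw [L, StarSubalgebra.mem_centralizer_iff]
  exact ⟨fun h T hT => (h T (mem_comm.2 hT)).1, fun h T hT =>
    ⟨h T (mem_comm.1 hT), h _ (mem_comm.1 (star_mem hT))⟩⟩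

lemma lam_mem (g : G) : lam g ∈ L G := mem_L.2 fun _ hT => (hT g).symm

lemma isClosed_L : IsClosed (L G : Set (L2 G →L[ℂ] L2 G)) := by
  rw [L, StarSubalgebra.coe_centralizer]; exact Set.isClosed_centralizer _

lemma rho_comm {x : L2 G →L[ℂ] L2 G} (hx : x ∈ L G) (g : G) : rho g * x = x * rho g :=
  mem_L.1 hx _ fun h => ext_dl fun a => by simp [lam_dl, rho_dl, mul_assoc]

lemma apply_dl {x : L2 G →L[ℂ] L2 G} (hx : x ∈ L G) (g : G) :
    x (dl g) = rho g⁻¹ (x (dl 1)) := by
  have := congrArg (fun T => T (dl 1)) (rho_comm hx g⁻¹)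
  simpa [rho_dl] using this.symm

lemma norm_apply_dl {x : L2 G →L[ℂ] L2 G} (hx : x ∈ L G) (g : G) : ‖x (dl g)‖ = ‖x (dl 1)‖ := by
  rw [apply_dl hx, norm_rho_apply]

lemma star_apply_dl {x : L2 G →L[ℂ] L2 G} (hx : x ∈ L G) (g : G) :
    star x (dl 1) g = conj (x (dl 1) g⁻¹) := by
  rw [← inner_dl, ContinuousLinearMap.star_eq_adjoint, ContinuousLinearMap.adjoint_inner_right,
    ← inner_conj_symm, inner_dl, apply_dl hx]
  simp [rho]

lemma norm_star_dl {x : L2 G →L[ℂ] L2 G} (hx : x ∈ L G) : ‖star x (dl 1)‖ = ‖x (dl 1)‖ := by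
  rw [← norm_pull (Equiv.inv G) (x (dl 1)), lp.norm_eq_tsum_rpow (by norm_num),
    lp.norm_eq_tsum_rpow (by norm_num)]
  simp [star_apply_dl hx]

lemma norm_mul_dl {x y : L2 G →L[ℂ] L2 G} (hx : x ∈ L G) (hy : y ∈ L G) :
    ‖x (y (dl 1))‖ ≤ ‖y‖ * ‖x (dl 1)‖ := by
  rw [← norm_star_dl hx, ← norm_star y]
  refine le_trans (le_of_eq ?_) ((star y).le_opNorm _)
  rw [← ContinuousLinearMap.mul_apply, ← norm_star_dl (mul_mem hx hy), star_mul,
    ContinuousLinearMap.mul_apply]

/-- The canonical trace. -/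
def tr (x : L2 G →L[ℂ] L2 G) : ℂ := ⟪dl 1, x (dl 1)⟫_ℂ

/-- The group algebra, as operators. -/
def P (G : Type*) [Group G] : StarSubalgebra ℂ (L2 G →L[ℂ] L2 G) :=
  StarAlgebra.adjoin ℂ (Set.range (lam (G := G)))

/-- Group elements in the group algebra. -/
def lp' (g : G) : P G := ⟨lam g, StarAlgebra.subset_adjoin _ _ ⟨g, rfl⟩⟩

lemma P_le : P G ≤ L G := StarAlgebra.adjoin_le (by rintro _ ⟨g, rfl⟩; exact lam_mem g)

lemma mem_P {x : L2 G →L[ℂ] L2 G} : x ∈ P G ↔ x ∈ Submodule.span ℂ (Set.range (lam (G := G))) := by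
  constructor
  · intro hx
    induction hx using StarAlgebra.adjoin_induction with
    | mem x hx => exact Submodule.subset_span hx
    | algebraMap c =>
      rw [Algebra.algebraMap_eq_smul_one, ← lam_one]
      exact Submodule.smul_mem _ _ (Submodule.subset_span ⟨1, rfl⟩)
    | add x y _ _ hx hy => exact add_mem hx hy
    | mul x y _ _ hx hy =>
      have := Submodule.mul_mem_mul hx hy
      rw [Submodule.span_mul_span] at this
      refine Submodule.span_mono ?_ this
      rintro _ ⟨_, ⟨g, rfl⟩, _, ⟨h, rfl⟩, rfl⟩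
      exact ⟨g * h, lam_mul g h⟩
    | star x h0 hx =>
      clear h0
      induction hx using Submodule.span_induction with
      | mem x hx => obtain ⟨g, rfl⟩ := hx; exact Submodule.subset_span ⟨g⁻¹, (star_lam g).symm⟩
      | zero => simp
      | add x y _ _ hx hy => rw [star_add]; exact add_mem hx hy
      | smul c x _ hx => rw [star_smul]; exact Submodule.smul_mem _ _ hx
  · intro hx
    exact (Submodule.span_le (p := (P G).toSubalgebra.toSubmodule)).2
      (StarAlgebra.subset_adjoin _ _) hx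

/-- Unitaries implementing trace preserving endomorphisms of `L G`. -/
structure Good (W : L2 G →L[ℂ] L2 G) : Prop where
  unit : W ∈ unitary (L2 G →L[ℂ] L2 G)
  fix : W (dl 1) = dl 1
  mem : ∀ g : G, W * lam g * star W ∈ L G

/-- Derivations of the group algebra. -/
def IsDer (δ : P G →ₗ[ℂ] P G) : Prop := ∀ x y, δ (x * y) = δ x * y + x * δ y

/-- The span of the conjugates of the powers of `t`. -/
def Cj (t : G) : Submodule ℂ (L2 G →L[ℂ] L2 G) :=
  Submodule.span ℂ {x | ∃ (b : G) (n : ℤ), x = lam (b * t ^ n * b⁻¹)}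

/-- The span of the powers of `t`. -/
def Pw (t : G) : Submodule ℂ (L2 G →L[ℂ] L2 G) :=
  Submodule.span ℂ {x | ∃ n : ℤ, x = lam (t ^ n)}

/-- The elements `y k = a ^ k * b * a ^ (-k)`. -/
def yy (a b : G) (k : ℕ) : G := a ^ k * b * (a ^ k)⁻¹

/-- The words `g n = ∏_(k < n) y k * u * (y k)⁻¹`. -/
def gg (a b u : G) : ℕ → G
  | 0 => 1
  | n + 1 => gg a b u n * (yy a b n * u * (yy a b n)⁻¹)

/-- The initial segments `p k = g k * y k`. -/
def pp (a b u : G) (k : ℕ) : G := gg a b u k * yy a b k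

end group

end

end Vale.Agent.P086
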