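import Mathlib

/-! Definitions for P086: the left regular representation and the group von Neumann algebra. -/

namespace Vale.Agent.P086

noncomputable section

/-- The Hilbert space of square summable complex functions on `α`. -/
abbrev L2 (α : Type*) := lp (fun _ : α => ℂ) 2

lemma memℓp_comp {α β : Type*} (e : β ≃ α) (ξ : L2 α) : Memℓp (fun b => ξ (e b)) 2 :=
  memℓp_gen ((e.summable_iff (f := fun a => ‖ξ a‖ ^ (2 : ENNReal).toReal)).2
    ((lp.memℓp ξ).summable (by norm_num)))

/-- Composition with a bijection `e`, as a linear map: `ξ ↦ ξ ∘ e`. -/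
def pullₗ {α β : Type*} (e : β ≃ α) : L2 α →ₗ[ℂ] L2 β where
  toFun ξ := ⟨fun b => ξ (e b), memℓp_comp e ξ⟩
  map_add' _ _ := rfl
  map_smul' _ _ := rfl

lemma norm_pullₗ {α β : Type*} (e : β ≃ α) (ξ : L2 α) : ‖pullₗ e ξ‖ = ‖ξ‖ := by
  rw [lp.norm_eq_tsum_rpow (by norm_num), lp.norm_eq_tsum_rpow (by norm_num)]
  congr 1
  exact e.tsum_eq fun a => ‖ξ a‖ ^ (2 : ENNReal).toReal

/-- Composition with a bijection `e`, as a bounded operator: `ξ ↦ ξ ∘ e`. -/
def pull {α β : Type*} (e : β ≃ α) : L2 α →L[ℂ] L2 β :=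
  (pullₗ e).mkContinuous 1 fun ξ => by rw [norm_pullₗ, one_mul]

/-- The left regular representation: `(lam g ξ) h = ξ (g⁻¹ * h)`. -/
def lam {G : Type*} [Group G] (g : G) : L2 G →L[ℂ] L2 G := pull (Equiv.mulLeft g⁻¹)

/-- The group von Neumann algebra: the bicommutant of the left regular representation. -/
def L (G : Type*) [Group G] : StarSubalgebra ℂ (L2 G →L[ℂ] L2 G) :=
  StarSubalgebra.centralizer ℂ
    (StarSubalgebra.centralizer ℂ (Set.range (lam (G := G))) : Set (L2 G →L[ℂ] L2 G))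

end

end Vale.Agent.P086
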