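import Vale.Agent.P086.Basic

/-! Part E: exponential series of a derivation. -/

namespace Vale.Agent.P086.E

open scoped InnerProductSpace ComplexConjugate
open Finset

variable {R : Type*} [Ring R] [StarRing R] [Algebra ℂ R] [StarModule ℂ R]
variable {B : Type*} [CStarAlgebra B] {i : R →⋆ₐ[ℂ] B} {δ : R →ₗ[ℂ] R}

/-- Derivations. -/
def Der (δ : R →ₗ[ℂ] R) : Prop := ∀ x y, δ (x * y) = δ x * y + x * δ y

lemma pow_succ_apply (n : ℕ) (x : R) : (δ ^ (n + 1)) x = δ ((δ ^ n) x) := by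
  rw [pow_succ']; rfl

lemma pow_succ_apply' (n : ℕ) (x : R) : (δ ^ (n + 1)) x = (δ ^ n) (δ x) := by
  rw [pow_succ]; rfl

lemma leibniz (hδ : Der δ) (n : ℕ) (x y : R) :
    (δ ^ n) (x * y) = ∑ p ∈ antidiagonal n, n.choose p.1 • ((δ ^ p.1) x * (δ ^ p.2) y) := by
  induction n with
  | zero => simp
  | succ n ih =>
    rw [sum_antidiagonal_choose_succ_nsmul (fun i j => (δ ^ i) x * (δ ^ j) y) n]
    simp only [pow_succ_apply, ih, map_sum, map_nsmul, hδ _ _, smul_add, sum_add_distrib]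
    rw [add_comm]
    congr 1
    refine sum_congr rfl fun ⟨i, j⟩ hij => ?_
    rw [n.choose_symm_of_eq_add (mem_antidiagonal.1 hij).symm]

/-- Terms of the exponential series. -/
noncomputable def tm (i : R →⋆ₐ[ℂ] B) (δ : R →ₗ[ℂ] R) (s : ℝ) (x : R) (n : ℕ) : B :=
  ((s ^ n / n.factorial : ℝ) : ℂ) • i ((δ ^ n) x)

lemma tm_mul (hδ : Der δ) (s : ℝ) (x y : R) (n : ℕ) :
    tm i δ s (x * y) n = ∑ p ∈ antidiagonal n, tm i δ s x p.1 * tm i δ s y p.2 := by
  rw [tm, leibniz hδ, map_sum, smul_sum]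
  refine sum_congr rfl fun ⟨i, j⟩ hij => ?_
  obtain rfl := mem_antidiagonal.1 hij
  simp only [tm, smul_mul_smul_comm, ← Nat.cast_smul_eq_nsmul ℂ, map_smul, smul_smul,
    map_mul, Nat.cast_add_choose]
  congr 1
  have h1 : ((i + j).factorial : ℂ) ≠ 0 := Nat.cast_ne_zero.2 (Nat.factorial_ne_zero _)
  have h2 : (i.factorial : ℂ) ≠ 0 := Nat.cast_ne_zero.2 (Nat.factorial_ne_zero _)
  have h3 : (j.factorial : ℂ) ≠ 0 := Nat.cast_ne_zero.2 (Nat.factorial_ne_zero _)
  push_cast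
  field_simp
  ring

lemma tm_add (s : ℝ) (x y : R) (n : ℕ) : tm i δ s (x + y) n = tm i δ s x n + tm i δ s y n := by
  simp [tm]

lemma tm_smul (s : ℝ) (c : ℂ) (x : R) (n : ℕ) : tm i δ s (c • x) n = c • tm i δ s x n := by
  simp only [tm, map_smul]
  rw [smul_comm]

lemma pow_star (hs : ∀ x, δ (star x) = star (δ x)) (n : ℕ) (x : R) :
    (δ ^ n) (star x) = star ((δ ^ n) x) := by
  induction n with
  | zero => rfl
  | succ n ih => rw [pow_succ_apply, pow_succ_apply, ih, hs]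

lemma tm_star (hs : ∀ x, δ (star x) = star (δ x)) (s : ℝ) (x : R) (n : ℕ) :
    tm i δ s (star x) n = star (tm i δ s x n) := by
  rw [tm, tm, pow_star hs, star_smul, RCLike.star_def, Complex.conj_ofReal, map_star]

lemma tm_zero (s : ℝ) (x : R) : tm i δ s x 0 = i x := by simp [tm]

lemma tm_one (s : ℝ) (x : R) : tm i δ s x 1 = (s : ℂ) • i (δ x) := by simp [tm]

lemma tm_of_zero (s : ℝ) {x : R} (hx : δ x = 0) {n : ℕ} (hn : n ≠ 0) : tm i δ s x n = 0 := by
  obtain ⟨n, rfl⟩ := Nat.exists_eq_succ_of_ne_zero hn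
  simp [tm, pow_succ_apply', hx]

lemma norm_tm (s : ℝ) (x : R) (n : ℕ) :
    ‖tm i δ s x n‖ = |s| ^ n / n.factorial * ‖i ((δ ^ n) x)‖ := by
  rw [tm, norm_smul, Complex.norm_real, Real.norm_eq_abs, abs_div, abs_pow, Nat.abs_cast]

/-- Analytic elements. -/
def An (i : R →⋆ₐ[ℂ] B) (δ : R →ₗ[ℂ] R) (s : ℝ) (x : R) : Prop := Summable fun n => ‖tm i δ s x n‖

lemma An.mono {r s : ℝ} {x : R} (h : An i δ r x) (hs : |s| ≤ |r|) : An i δ s x :=
  Summable.of_nonneg_of_le (fun _ => norm_nonneg _) (fun n => by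
    rw [norm_tm, norm_tm]; gcongr) h

lemma An.add {s : ℝ} {x y : R} (hx : An i δ s x) (hy : An i δ s y) : An i δ s (x + y) :=
  Summable.of_nonneg_of_le (fun _ => norm_nonneg _) (fun n => by
    rw [tm_add]; exact norm_add_le _ _) (Summable.add hx hy)

lemma An.smul {s : ℝ} {x : R} (hx : An i δ s x) (c : ℂ) : An i δ s (c • x) := by
  simp only [An, tm_smul, norm_smul]; exact hx.mul_left _

lemma An.star (hs : ∀ x, δ (star x) = star (δ x)) {s : ℝ} {x : R} (hx : An i δ s x) :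
    An i δ s (star x) := by
  simp only [An, tm_star hs, norm_star]; exact hx

lemma An.mul (hδ : Der δ) {s : ℝ} {x y : R} (hx : An i δ s x) (hy : An i δ s y) :
    An i δ s (x * y) := by
  simp only [An, tm_mul hδ]
  exact summable_norm_sum_mul_antidiagonal_of_summable_norm hx hy

lemma an_of_zero (s : ℝ) {x : R} (hx : δ x = 0) : An i δ s x :=
  summable_of_ne_finset_zero (s := {0}) fun n hn => by
    rw [tm_of_zero s hx (by simpa using hn), norm_zero]

lemma der_one (hδ : Der δ) : δ 1 = 0 := by simpa using hδ 1 1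

/-- The exponential. -/
noncomputable def al (i : R →⋆ₐ[ℂ] B) (δ : R →ₗ[ℂ] R) (s : ℝ) (x : R) : B := ∑' n, tm i δ s x n

lemma An.hasSum {s : ℝ} {x : R} (hx : An i δ s x) : HasSum (tm i δ s x) (al i δ s x) :=
  (Summable.of_norm hx).hasSum

lemma al_mul (hδ : Der δ) {s : ℝ} {x y : R} (hx : An i δ s x) (hy : An i δ s y) :
    al i δ s (x * y) = al i δ s x * al i δ s y := by
  simp only [al, tm_mul hδ]
  exact (tsum_mul_tsum_eq_tsum_sum_antidiagonal_of_summable_norm hx hy).symm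

lemma al_add {s : ℝ} {x y : R} (hx : An i δ s x) (hy : An i δ s y) :
    al i δ s (x + y) = al i δ s x + al i δ s y := by
  simp only [al, tm_add]
  exact (hx.hasSum.add hy.hasSum).tsum_eq

lemma al_smul {s : ℝ} {x : R} (hx : An i δ s x) (c : ℂ) : al i δ s (c • x) = c • al i δ s x := by
  simp only [al, tm_smul]
  exact (hx.hasSum.const_smul c).tsum_eq

lemma al_star (hs : ∀ x, δ (star x) = star (δ x)) (s : ℝ) (x : R) :
    al i δ s (star x) = star (al i δ s x) := by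
  simp only [al, tm_star hs, tsum_star]

lemma al_of_zero (s : ℝ) {x : R} (hx : δ x = 0) : al i δ s x = i x := by
  rw [al, tsum_eq_single 0 fun n hn => tm_of_zero s hx hn, tm_zero]

lemma al_mem {M : StarSubalgebra ℂ B} (hM : IsClosed (M : Set B)) (hi : ∀ x, i x ∈ M) {s : ℝ}
    {x : R} (hx : An i δ s x) : al i δ s x ∈ M :=
  hM.mem_of_tendsto hx.hasSum (Filter.Eventually.of_forall fun _ =>
    sum_mem fun _ _ => M.smul_mem (hi _) _)

lemma tr_pow (hδ : Der δ) (τ : B →L[ℂ] ℂ) (ht : ∀ x, τ (i (δ x)) = 0) (n : ℕ) (a x : R) :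
    τ (i a * i ((δ ^ n) x)) = (-1) ^ n * τ (i ((δ ^ n) a) * i x) := by
  induction n generalizing a with
  | zero => simp
  | succ n ih =>
    have := ht (a * (δ ^ n) x)
    rw [hδ, map_add, map_add, map_mul i, map_mul i, ih (δ a), ← pow_succ_apply,
      ← pow_succ_apply'] at this
    linear_combination this

lemma tr_al (hδ : Der δ) (τ : B →L[ℂ] ℂ) (ht : ∀ x, τ (i (δ x)) = 0) {s : ℝ} {a x : R}
    (ha : An i δ (-s) a) (hx : An i δ s x) :
    τ (i a * al i δ s x) = τ (al i δ (-s) a * i x) := by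
  have h1 := (hx.hasSum.mul_left (i a)).mapL τ
  have h2 := (ha.hasSum.mul_right (i x)).mapL τ
  refine h1.unique ?_
  have e : ∀ n, τ (i a * tm i δ s x n) = τ (tm i δ (-s) a n * i x) := fun n => by
    simp only [tm, mul_smul_comm, smul_mul_assoc, map_smul, tr_pow hδ τ ht n a x, smul_eq_mul]
    rw [neg_pow s]
    push_cast
    ring
  simpa only [e] using h2

lemma norm_rem {r s : ℝ} (hr : 0 < r) (h0 : 0 ≤ s) (hs : s ≤ r) {x : R} (hx : An i δ r x) :
    ‖al i δ s x - i x - (s : ℂ) • i (δ x)‖ ≤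
      (∑' n, ‖tm i δ r x (n + 2)‖) / r ^ 2 * s ^ 2 := by
  have hx' : An i δ s x := hx.mono (by rw [abs_of_nonneg h0, abs_of_pos hr]; exact hs)
  have e := hx'.hasSum.summable.sum_add_tsum_nat_add 2
  rw [sum_range_succ, sum_range_one, tm_zero, tm_one] at e
  rw [al, ← e, sub_sub, add_sub_cancel_left]
  have h2 : Summable fun n => ‖tm i δ r x (n + 2)‖ := (summable_nat_add_iff 2).2 hx
  refine tsum_of_norm_bounded ((h2.hasSum.div_const (r ^ 2)).mul_right (s ^ 2)) fun n => ?_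
  rw [norm_tm, norm_tm, abs_of_nonneg h0, abs_of_pos hr]
  have h3 : s ^ n ≤ r ^ n := pow_le_pow_left₀ h0 hs n
  have h4 : r ^ (n + 2) / (n + 2).factorial * ‖i ((δ ^ (n + 2)) x)‖ / r ^ 2 * s ^ 2 =
      r ^ n * s ^ 2 / (n + 2).factorial * ‖i ((δ ^ (n + 2)) x)‖ := by
    field_simp
    ring
  rw [h4, pow_add]
  gcongr

end Vale.Agent.P086.E
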