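import Vale.Agent.P086.PartF1

/-! Part F2 of P086: the limit of the automorphisms. -/

namespace Vale.Agent.P086

open scoped InnerProductSpace ComplexConjugate
open Filter Topology
open FreeGroup (of)

namespace F

section gen
variable {G : Type*} [Group G]

lemma star_fix {W : L2 G →L[ℂ] L2 G} (h : Good W) : star W (dl 1) = dl 1 := by
  have := congrArg (fun S : L2 G →L[ℂ] L2 G => S (dl 1)) (Unitary.star_mul_self_of_mem h.unit)
  simpa [h.fix] using this

lemma conj_mem {W x : L2 G →L[ℂ] L2 G} (h : Good W) (hx : x ∈ L G) : W * x * star W ∈ L G := by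
  have u1 := Unitary.star_mul_self_of_mem h.unit
  have u2 := Unitary.mul_star_self_of_mem h.unit
  refine mem_L.2 fun T hT => ?_
  have k := mem_L.1 hx (star W * T * W) fun g => by
    have := mem_L.1 (h.mem g) T hT
    calc lam g * (star W * T * W) = (star W * W) * lam g * (star W * T * W) := by rw [u1, one_mul]
      _ = star W * (W * lam g * star W * T) * W := by simp only [mul_assoc]
      _ = star W * T * W * lam g * (star W * W) := by rw [← this]; simp only [mul_assoc]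
      _ = _ := by rw [u1, mul_one]
  calc T * (W * x * star W) = (W * star W) * T * (W * x * star W) := by rw [u2, one_mul]
    _ = W * (star W * T * W * x) * star W := by simp only [mul_assoc]
    _ = W * x * star W * T * (W * star W) := by rw [k]; simp only [mul_assoc]
    _ = _ := by rw [u2, mul_one]

lemma good_one : Good (1 : L2 G →L[ℂ] L2 G) :=
  ⟨one_mem _, rfl, fun g => by rw [star_one, one_mul, mul_one]; exact lam_mem g⟩

lemma good_mul {U W : L2 G →L[ℂ] L2 G} (hU : Good U) (hW : Good W) : Good (U * W) :=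
  ⟨mul_mem hU.unit hW.unit, by rw [ContinuousLinearMap.mul_apply, hW.fix, hU.fix], fun g => by
    have := conj_mem hU (hW.mem g)
    rw [star_mul]
    simpa only [mul_assoc] using this⟩

lemma norm_unit {W : L2 G →L[ℂ] L2 G} (h : W ∈ unitary (L2 G →L[ℂ] L2 G)) (ξ : L2 G) :
    ‖W ξ‖ = ‖ξ‖ := ContinuousLinearMap.norm_map_of_mem_unitary h ξ

lemma norm_le_one {W : L2 G →L[ℂ] L2 G} (h : W ∈ unitary (L2 G →L[ℂ] L2 G)) : ‖W‖ ≤ 1 :=
  ContinuousLinearMap.opNorm_le_bound _ zero_le_one fun ξ => by rw [norm_unit h, one_mul]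

/-- The representation conjugated by `W`. -/
noncomputable def cj {W : L2 G →L[ℂ] L2 G} (h : Good W) : G →* (L2 G →L[ℂ] L2 G) where
  toFun g := W * lam g * star W
  map_one' := by rw [lam_one, mul_one, Unitary.mul_star_self_of_mem h.unit]
  map_mul' g g' := by
    calc W * lam (g * g') * star W = W * lam g * (star W * W) * lam g' * star W := by
          rw [Unitary.star_mul_self_of_mem h.unit, mul_one, lam_mul]; simp only [mul_assoc]
      _ = _ := by simp only [mul_assoc]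

lemma cj_dl {W : L2 G →L[ℂ] L2 G} (h : Good W) (g : G) : cj h g (dl 1) = W (dl g) := by
  change W (lam g (star W (dl 1))) = _
  rw [star_fix h, lam_dl, mul_one]

lemma cj_unit {W : L2 G →L[ℂ] L2 G} (h : Good W) (g : G) :
    cj h g ∈ unitary (L2 G →L[ℂ] L2 G) :=
  mul_mem (mul_mem h.unit (lam_unitary g)) (Unitary.star_mem h.unit)

lemma close {ι : Type*} (w : FreeGroup ι) : ∃ C : ℝ, 0 ≤ C ∧
    ∀ (φ ψ : FreeGroup ι →* (L2 G →L[ℂ] L2 G)) (ε : ℝ),
      (∀ v, φ v ∈ L G ∧ φ v ∈ unitary (L2 G →L[ℂ] L2 G)) →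
      (∀ v, ψ v ∈ L G ∧ ψ v ∈ unitary (L2 G →L[ℂ] L2 G)) →
      (∀ j, ‖φ (of j) (dl 1) - ψ (of j) (dl 1)‖ ≤ ε) → ‖φ w (dl 1) - ψ w (dl 1)‖ ≤ C * ε := by
  have inv : ∀ (φ : FreeGroup ι →* (L2 G →L[ℂ] L2 G)) (v : FreeGroup ι),
      φ v ∈ unitary (L2 G →L[ℂ] L2 G) → φ v⁻¹ = star (φ v) := fun φ v hv => by
    calc φ v⁻¹ = φ v⁻¹ * (φ v * star (φ v)) := by rw [Unitary.mul_star_self_of_mem hv, mul_one]
      _ = _ := by rw [← mul_assoc, ← map_mul, inv_mul_cancel, map_one, one_mul]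
  induction w using FreeGroup.induction_on with
  | C1 => exact ⟨0, le_rfl, fun φ ψ ε _ _ _ => by simp⟩
  | of j => exact ⟨1, zero_le_one, fun φ ψ ε _ _ h => by rw [one_mul]; exact h j⟩
  | inv_of j _ =>
    refine ⟨1, zero_le_one, fun φ ψ ε h1 h2 h => ?_⟩
    rw [one_mul, inv φ _ (h1 _).2, inv ψ _ (h2 _).2, ← ContinuousLinearMap.sub_apply, ← star_sub,
      norm_star_dl (sub_mem (h1 _).1 (h2 _).1)]
    exact h j
  | mul x y hx hy =>
    obtain ⟨C, c0, hC⟩ := hx
    obtain ⟨D, d0, hD⟩ := hy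
    refine ⟨C + D, by positivity, fun φ ψ ε h1 h2 h => ?_⟩
    have e : φ (x * y) (dl 1) - ψ (x * y) (dl 1) =
        φ x (φ y (dl 1) - ψ y (dl 1)) + (φ x - ψ x) (ψ y (dl 1)) := by
      rw [map_mul, map_mul, map_sub]
      simp
    have a1 := norm_mul_dl (sub_mem (h1 x).1 (h2 x).1) (h2 y).1
    have a2 := mul_le_of_le_one_left (norm_nonneg ((φ x - ψ x) (dl 1))) (norm_le_one (h2 y).2)
    have a3 : ‖(φ x - ψ x) (dl 1)‖ ≤ C * ε := hC φ ψ ε h1 h2 h
    have a4 := hD φ ψ ε h1 h2 h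
    rw [e]
    refine (norm_add_le _ _).trans ?_
    rw [norm_unit (h1 x).2]
    linarith

end gen

section span
variable {α β : Type*} {E : Type*} [NormedAddCommGroup E] [NormedSpace ℂ E]

lemma fin1 (C : α → ℝ) {ζ : L2 α} (hζ : ζ ∈ Submodule.span ℂ (Set.range (dl : α → L2 α))) :
    ∃ K : ℝ, 0 ≤ K ∧ ∀ (D : L2 α →L[ℂ] E) (ε : ℝ), 0 ≤ ε → (∀ a, ‖D (dl a)‖ ≤ C a * ε) →
      ‖D ζ‖ ≤ K * ε := by
  induction hζ using Submodule.span_induction with
  | mem x hx =>
    obtain ⟨a, rfl⟩ := hx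
    exact ⟨|C a|, abs_nonneg _, fun D ε h0 h =>
      (h a).trans (mul_le_mul_of_nonneg_right (le_abs_self _) h0)⟩
  | zero => exact ⟨0, le_rfl, fun D ε _ _ => by simp⟩
  | add x y _ _ hx hy =>
    obtain ⟨K, k0, hK⟩ := hx
    obtain ⟨M, m0, hM⟩ := hy
    refine ⟨K + M, by positivity, fun D ε h0 h => ?_⟩
    rw [map_add, add_mul]
    exact (norm_add_le _ _).trans (add_le_add (hK D ε h0 h) (hM D ε h0 h))
  | smul c x _ hx =>
    obtain ⟨K, k0, hK⟩ := hx
    refine ⟨‖c‖ * K, by positivity, fun D ε h0 h => ?_⟩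
    rw [map_smul, norm_smul, mul_assoc]
    exact mul_le_mul_of_nonneg_left (hK D ε h0 h) (norm_nonneg _)

lemma fin2 (C : β → ℝ) {ξ : L2 β} (hξ : ξ ∈ Submodule.span ℂ (Set.range (dl : β → L2 β))) :
    ∃ K : ℝ, 0 ≤ K ∧ ∀ (A : L2 α →L[ℂ] L2 β) (ε : ℝ), 0 ≤ ε →
      (∀ b, ∃ a, ‖A (dl a) - dl b‖ ≤ C b * ε) →
      ∃ ζ ∈ Submodule.span ℂ (Set.range (dl : α → L2 α)), ‖A ζ - ξ‖ ≤ K * ε := by
  induction hξ using Submodule.span_induction with
  | mem x hx =>
    obtain ⟨b, rfl⟩ := hx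
    refine ⟨|C b|, abs_nonneg _, fun A ε h0 h => ?_⟩
    obtain ⟨a, ha⟩ := h b
    exact ⟨dl a, Submodule.subset_span ⟨a, rfl⟩,
      ha.trans (mul_le_mul_of_nonneg_right (le_abs_self _) h0)⟩
  | zero => exact ⟨0, le_rfl, fun A ε _ _ => ⟨0, zero_mem _, by simp⟩⟩
  | add x y _ _ hx hy =>
    obtain ⟨K, k0, hK⟩ := hx
    obtain ⟨M, m0, hM⟩ := hy
    refine ⟨K + M, by positivity, fun A ε h0 h => ?_⟩
    obtain ⟨p, p1, p2⟩ := hK A ε h0 h
    obtain ⟨q, q1, q2⟩ := hM A ε h0 h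
    refine ⟨p + q, add_mem p1 q1, ?_⟩
    rw [map_add, add_sub_add_comm, add_mul]
    exact (norm_add_le _ _).trans (add_le_add p2 q2)
  | smul c x _ hx =>
    obtain ⟨K, k0, hK⟩ := hx
    refine ⟨‖c‖ * K, by positivity, fun A ε h0 h => ?_⟩
    obtain ⟨p, p1, p2⟩ := hK A ε h0 h
    refine ⟨c • p, Submodule.smul_mem _ _ p1, ?_⟩
    rw [map_smul, ← smul_sub, norm_smul, mul_assoc]
    exact mul_le_mul_of_nonneg_left p2 (norm_nonneg _)

end span

section main
variable {κ : Type*}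

lemma lamH_dl (v : FreeGroup (Option κ)) : lamH v (dl 1) = dl v := by
  change lam v (dl 1) = _
  rw [lam_dl, mul_one]

lemma closeA (w : FreeGroup κ) : ∃ C : ℝ, 0 ≤ C ∧
    ∀ (W : L2 (FreeGroup (Option κ)) →L[ℂ] L2 (FreeGroup (Option κ))) (ε : ℝ), Good W →
      (∀ j : κ, ‖W (dl (of (some j))) - dl (of (some j))‖ ≤ ε) →
      ‖W (dl (FreeGroup.map some w)) - dl (FreeGroup.map some w)‖ ≤ C * ε := by
  obtain ⟨C, c0, hC⟩ := close (G := FreeGroup (Option κ)) w
  refine ⟨C, c0, fun W ε hW w1 => ?_⟩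
  have := hC ((cj hW).comp (FreeGroup.map some)) (lamH.comp (FreeGroup.map some)) ε
    (fun v => ⟨hW.mem _, cj_unit hW _⟩) (fun v => ⟨lam_mem _, lam_unitary _⟩) fun j => by
      rw [MonoidHom.comp_apply, MonoidHom.comp_apply, FreeGroup.map.of, cj_dl, lamH_dl]
      exact w1 j
  rwa [MonoidHom.comp_apply, MonoidHom.comp_apply, cj_dl, lamH_dl] at this

lemma closeB (w : FreeGroup (Option κ)) : ∃ C : ℝ,
    ∀ (W : L2 (FreeGroup (Option κ)) →L[ℂ] L2 (FreeGroup (Option κ))) (ε : ℝ) (g : FreeGroup κ),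
      Good W → (∀ j : κ, ‖W (dl (of (some j))) - dl (of (some j))‖ ≤ ε) →
      ‖W (dl (FreeGroup.map some g)) - dl (of none)‖ ≤ ε →
      ∃ a, ‖W (dl (FreeGroup.map some a)) - dl w‖ ≤ C * ε := by
  obtain ⟨C, -, hC⟩ := close (G := FreeGroup (Option κ)) w
  refine ⟨C, fun W ε g hW w1 w2 => ?_⟩
  obtain ⟨θ, t1, t2⟩ : ∃ θ : FreeGroup (Option κ) →* FreeGroup κ, θ (of none) = g ∧
      ∀ j, θ (of (some j)) = of j :=
    ⟨FreeGroup.lift fun o => o.elim g of, FreeGroup.lift_apply_of, fun _ => FreeGroup.lift_apply_of⟩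
  have := hC ((cj hW).comp ((FreeGroup.map some).comp θ)) lamH ε
    (fun v => ⟨hW.mem _, cj_unit hW _⟩) (fun v => ⟨lam_mem _, lam_unitary _⟩) fun j => by
      rw [MonoidHom.comp_apply, MonoidHom.comp_apply, cj_dl, lamH_dl]
      cases j with
      | none => rw [t1]; exact w2
      | some j => rw [t2, FreeGroup.map.of]; exact w1 j
  rw [MonoidHom.comp_apply, MonoidHom.comp_apply, cj_dl, lamH_dl] at this
  exact ⟨θ w, this⟩

lemma step
    (hk : ∀ ε : ℝ, 0 < ε → ∃ (W : L2 (FreeGroup (Option κ)) →L[ℂ] L2 (FreeGroup (Option κ)))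
      (g : FreeGroup κ), Good W ∧ (∀ j : κ, ‖W (dl (of (some j))) - dl (of (some j))‖ ≤ ε) ∧
        ‖W (dl (FreeGroup.map some g)) - dl (of none)‖ ≤ ε)
    (J : L2 (FreeGroup κ) →L[ℂ] L2 (FreeGroup (Option κ))) (hJ : ∀ w, J (dl w) = dl (FreeGroup.map some w)) :
    ∃ C : FreeGroup κ → ℝ, (∀ w, 0 ≤ C w) ∧
      ∀ (z : FreeGroup (Option κ)) (δ : ℝ), 0 < δ →
      ∀ (U : L2 (FreeGroup (Option κ)) →L[ℂ] L2 (FreeGroup (Option κ))) (e : ℝ), Good U → 0 < e →
      ∃ (U' : L2 (FreeGroup (Option κ)) →L[ℂ] L2 (FreeGroup (Option κ))) (e' : ℝ), Good U' ∧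
        0 < e' ∧ e' ≤ e / 2 ∧ (∀ w, ‖U' (J (dl w)) - U (J (dl w))‖ ≤ C w * e) ∧
        ∀ A : L2 (FreeGroup κ) →L[ℂ] L2 (FreeGroup (Option κ)),
          (∀ w, ‖A (dl w) - U' (J (dl w))‖ ≤ C w * (2 * e')) → ∃ ζ, ‖A ζ - dl z‖ ≤ δ := by
  choose C c0 hC using closeA (κ := κ)
  choose D hD using closeB (κ := κ)
  refine ⟨C, c0, fun z δ hδ U e hU he => ?_⟩
  obtain ⟨ξ, hξ, hd⟩ := Metric.mem_closure_iff.1 (dense_span_dl (star U (dl z))) (δ / 3)
    (by positivity)
  obtain ⟨K, k0, hK⟩ := fin2 (α := FreeGroup κ) D hξ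
  set ε := min e (δ / 3 / (K + 1)) with hε
  have ε0 : 0 < ε := lt_min he (by positivity)
  obtain ⟨W, g, hW, w1, w2⟩ := hk ε ε0
  have a1 : ∀ w, ‖W (J (dl w)) - J (dl w)‖ ≤ C w * ε := fun w => by
    rw [hJ]; exact hC w W ε hW w1
  obtain ⟨ζ, hζ, a2⟩ := hK (W.comp J) ε ε0.le fun b => by
    obtain ⟨a, ha⟩ := hD b W ε g hW w1 w2
    exact ⟨a, by rw [ContinuousLinearMap.comp_apply, hJ]; exact ha⟩
  obtain ⟨M, m0, hM⟩ := fin1 (E := L2 (FreeGroup (Option κ))) C hζ
  set e' := min (e / 2) (δ / 6 / (M + 1)) with he'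
  have e0 : 0 < e' := lt_min (by positivity) (by positivity)
  refine ⟨U * W, e', good_mul hU hW, e0, min_le_left _ _, fun w => ?_, fun A hA => ⟨ζ, ?_⟩⟩
  · rw [ContinuousLinearMap.mul_apply, ← map_sub, norm_unit hU.unit]
    exact (a1 w).trans (mul_le_mul_of_nonneg_left (min_le_left _ _) (c0 w))
  · have b1 := hM (A - (U * W).comp J) (2 * e') (by positivity) hA
    have b2 : M * (2 * e') ≤ δ / 3 := by
      have : e' * (M + 1) ≤ δ / 6 := (le_div_iff₀ (by positivity)).1 (min_le_right _ _)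
      nlinarith
    have b3 : K * ε ≤ δ / 3 := by
      have : ε * (K + 1) ≤ δ / 3 := (le_div_iff₀ (by positivity)).1 (min_le_right _ _)
      nlinarith
    have b4 : U (star U (dl z)) = dl z :=
      congrArg (fun S : L2 _ →L[ℂ] L2 _ => S (dl z)) (Unitary.mul_star_self_of_mem hU.unit)
    have e : A ζ - dl z = (A - (U * W).comp J) ζ + U ((W.comp J) ζ - ξ) +
        U (ξ - star U (dl z)) := by
      simp only [ContinuousLinearMap.sub_apply, ContinuousLinearMap.comp_apply,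
        ContinuousLinearMap.mul_apply, map_sub, b4]
      abel
    rw [dist_comm, dist_eq_norm] at hd
    rw [e]
    refine (norm_add₃_le).trans ?_
    rw [norm_unit hU.unit, norm_unit hU.unit]
    linarith

end main

end F

theorem limit {κ : Type*} [Countable κ]
    (hk : ∀ ε : ℝ, 0 < ε → ∃ (W : L2 (FreeGroup (Option κ)) →L[ℂ] L2 (FreeGroup (Option κ)))
      (g : FreeGroup κ), Good W ∧ (∀ j : κ, ‖W (dl (of (some j))) - dl (of (some j))‖ ≤ ε) ∧
        ‖W (dl (FreeGroup.map some g)) - dl (of none)‖ ≤ ε) :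
    ∃ V : L2 (FreeGroup κ) ≃ₗᵢ[ℂ] L2 (FreeGroup (Option κ)), V (dl 1) = dl 1 ∧
      ∀ g : FreeGroup κ, ∃ x ∈ L (FreeGroup (Option κ)), ∀ ξ, V (lam g ξ) = x (V ξ) := by
  obtain ⟨J0, hJ0⟩ := exists_isometry (orthonormal_dl.comp (FreeGroup.map (some : κ → Option κ))
    (FreeGroup.map_injective (Option.some_injective κ)))
  set J := J0.toContinuousLinearMap with hJd
  have hJ : ∀ w, J (dl w) = dl (FreeGroup.map some w) := hJ0
  obtain ⟨C, c0, hC⟩ := F.step hk J hJ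
  obtain ⟨f, hf⟩ := exists_surjective_nat (FreeGroup (Option κ) × ℕ)
  choose! U' e' h1 h2 h3 h4 h5 using fun n : ℕ => hC (f n).1 (1 / ((f n).2 + 1 : ℝ))
    Nat.one_div_pos_of_nat
  let s : ℕ → (L2 (FreeGroup (Option κ)) →L[ℂ] L2 (FreeGroup (Option κ))) × ℝ := fun n =>
    Nat.rec (1, 1) (fun n p => (U' n p.1 p.2, e' n p.1 p.2)) n
  have hs : ∀ n, Good (s n).1 ∧ 0 < (s n).2 := fun n => by
    induction n with
    | zero => exact ⟨F.good_one, one_pos⟩
    | succ n ih => exact ⟨h1 n _ _ ih.1 ih.2, h2 n _ _ ih.1 ih.2⟩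
  have g3 : ∀ n, (s (n + 1)).2 ≤ (s n).2 / 2 := fun n => h3 n _ _ (hs n).1 (hs n).2
  have g4 : ∀ n w, ‖(s (n + 1)).1 (J (dl w)) - (s n).1 (J (dl w))‖ ≤ C w * (s n).2 :=
    fun n => h4 n _ _ (hs n).1 (hs n).2
  have g5 : ∀ n, ∀ A : L2 (FreeGroup κ) →L[ℂ] L2 (FreeGroup (Option κ)),
      (∀ w, ‖A (dl w) - (s (n + 1)).1 (J (dl w))‖ ≤ C w * (2 * (s (n + 1)).2)) →
        ∃ ζ, ‖A ζ - dl (f n).1‖ ≤ 1 / ((f n).2 + 1 : ℝ) := fun n => h5 n _ _ (hs n).1 (hs n).2
  generalize s = s at hs g3 g4 g5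
  have tel : ∀ w n m, n ≤ m → ‖(s m).1 (J (dl w)) - (s n).1 (J (dl w))‖ ≤
      C w * (2 * (s n).2 - 2 * (s m).2) := fun w n m h => by
    induction m, h using Nat.le_induction with
    | base => simp
    | succ m _ ih =>
      have a := norm_sub_le_norm_sub_add_norm_sub ((s (m + 1)).1 (J (dl w))) ((s m).1 (J (dl w)))
        ((s n).1 (J (dl w)))
      have b := mul_le_mul_of_nonneg_left (g3 m) (c0 w)
      have := g4 m w
      nlinarith
  have tel' : ∀ w n m, n ≤ m → ‖(s m).1 (J (dl w)) - (s n).1 (J (dl w))‖ ≤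
      C w * (2 * (s n).2) := fun w n m h =>
    (tel w n m h).trans (mul_le_mul_of_nonneg_left (by linarith [(hs m).2]) (c0 w))
  have e0 : Tendsto (fun n => (s n).2) atTop (𝓝 0) := by
    have : ∀ n, (s n).2 ≤ (s 0).2 * (1 / 2) ^ n := fun n => by
      induction n with
      | zero => simp
      | succ n ih => rw [pow_succ]; linarith [g3 n]
    refine squeeze_zero (fun n => (hs n).2.le) this ?_
    simpa using (tendsto_pow_atTop_nhds_zero_of_lt_one (r := (1 / 2 : ℝ)) (by norm_num)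
      (by norm_num)).const_mul (s 0).2
  have cau : ∀ w, CauchySeq fun n => (s n).1 (J (dl w)) := fun w =>
    cauchySeq_of_le_tendsto_0' (fun n => C w * (2 * (s n).2))
      (fun n m h => by rw [dist_comm, dist_eq_norm]; exact tel' w n m h)
      (by simpa using (e0.const_mul 2).const_mul (C w))
  choose v hv using fun w => cauchySeq_tendsto_of_complete (cau w)
  have hon : Orthonormal ℂ v := by
    classical
    rw [orthonormal_iff_ite]
    intro a b
    refine tendsto_nhds_unique ((hv a).inner (hv b)) (tendsto_const_nhds.congr fun n => ?_)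
    rw [ContinuousLinearMap.inner_map_map_of_mem_unitary (hs n).1.unit]
    exact ((J0.inner_map_map _ _).trans (orthonormal_iff_ite.1 orthonormal_dl a b)).symm
  obtain ⟨V0, hV0⟩ := exists_isometry hon
  have hsurj : Function.Surjective V0 := by
    have hcl : IsClosed (Set.range V0) := V0.isometry.isClosedEmbedding.isClosed_range
    have hz : ∀ z, dl z ∈ Set.range V0 := fun z => by
      rw [← hcl.closure_eq, Metric.mem_closure_iff]
      intro ε hε
      obtain ⟨k, hk⟩ := exists_nat_one_div_lt hε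
      obtain ⟨n, hn⟩ := hf (z, k)
      obtain ⟨ζ, hζ⟩ := g5 n V0.toContinuousLinearMap fun w => by
        refine le_of_tendsto ((hv w).sub_const ((s (n + 1)).1 (J (dl w)))).norm ?_ |>.trans_eq' ?_
        · exact (eventually_ge_atTop (n + 1)).mono fun m hm => tel' w _ m hm
        · rw [← hV0]; rfl
      rw [hn] at hζ
      exact ⟨_, ⟨ζ, rfl⟩, by rw [dist_comm, dist_eq_norm]; exact hζ.trans_lt hk⟩
    intro η
    have : Submodule.span ℂ (Set.range dl) ≤ LinearMap.range V0.toLinearMap :=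
      Submodule.span_le.2 (by rintro _ ⟨z, rfl⟩; exact hz z)
    exact hcl.closure_subset_iff.2 this (dense_span_dl η)
  set V := LinearIsometryEquiv.ofSurjective V0 hsurj with hVd
  have hV : ∀ w, V (dl w) = v w := hV0
  refine ⟨V, ?_, fun g => ⟨V.conjStarAlgEquiv (lam g), mem_L.2 fun T hT => ?_, fun ξ => by simp⟩⟩
  · rw [hV]
    refine tendsto_nhds_unique (hv 1) (tendsto_const_nhds.congr fun n => ?_)
    rw [hJ, map_one, (hs n).1.fix]
  · have conv : ∀ g h : FreeGroup κ, Tendsto (fun n => F.cj (hs n).1 (FreeGroup.map some g) (V (dl h)))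
        atTop (𝓝 (V (dl (g * h)))) := fun g h => by
      have e : ∀ n, F.cj (hs n).1 (FreeGroup.map some g) ((s n).1 (J (dl h))) =
          (s n).1 (J (dl (g * h))) := fun n => by
        rw [hJ, hJ, ← F.cj_dl (hs n).1, ← F.cj_dl (hs n).1, map_mul, map_mul]
        rfl
      rw [hV, hV]
      refine (hv (g * h)).congr_dist ?_
      have := (tendsto_iff_dist_tendsto_zero.1 (hv h))
      refine this.congr fun n => ?_
      rw [← e, dist_eq_norm, dist_eq_norm, ← map_sub, F.norm_unit (F.cj_unit _ _)]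
    refine F.ext2 V fun a b => ?_
    have x1 : ∀ g h : FreeGroup κ, V.conjStarAlgEquiv (lam g) (V (dl h)) = V (dl (g * h)) :=
      fun g h => by simp [lam_dl]
    have l1 := (tendsto_const_nhds (x := V (dl b))).inner (𝕜 := ℂ)
      ((T.continuous.tendsto _).comp (conv g a))
    have l2 := (conv g⁻¹ b).inner (𝕜 := ℂ) (tendsto_const_nhds (x := T (V (dl a))))
    have l3 : ⟪V (dl b), T (V (dl (g * a)))⟫_ℂ = ⟪V (dl (g⁻¹ * b)), T (V (dl a))⟫_ℂ := by
      refine tendsto_nhds_unique l1 (l2.congr fun n => ?_)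
      have k1 : F.cj (hs n).1 (FreeGroup.map some g⁻¹) = star (F.cj (hs n).1 (FreeGroup.map some g)) := by
        change _ * lam _ * _ = star (_ * lam _ * _)
        rw [star_mul, star_mul, star_star, star_lam, map_inv, mul_assoc]
      have k2 := congrArg (fun S : L2 _ →L[ℂ] L2 _ => S (V (dl a)))
        (mem_L.1 ((hs n).1.mem (FreeGroup.map some g)) T hT)
      rw [k1, ContinuousLinearMap.star_eq_adjoint, ContinuousLinearMap.adjoint_inner_left]
      exact congrArg (fun η => ⟪V (dl b), η⟫_ℂ) k2.symm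
    rw [ContinuousLinearMap.mul_apply, ContinuousLinearMap.mul_apply, x1, l3, ← x1, ← star_lam,
      map_star, ContinuousLinearMap.star_eq_adjoint, ContinuousLinearMap.adjoint_inner_left]

end Vale.Agent.P086
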