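import Vale.Agent.P086.PartS
import Vale.Agent.P086.PartF

/-! Assembly for P086. -/

namespace Vale.Agent.P086

/-- Composition with a bijection as a unitary. -/
noncomputable def pullE {α β : Type*} (e : β ≃ α) : L2 α ≃ₗᵢ[ℂ] L2 β where
  toLinearMap := pullₗ e
  invFun := pullₗ e.symm
  left_inv ξ := by
    ext a
    exact congrArg ξ (e.apply_symm_apply a)
  right_inv ξ := by
    ext a
    exact congrArg ξ (e.symm_apply_apply a)
  norm_map' := norm_pullₗ e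

lemma iso_congr {G G' : Type*} [Group G] [Group G'] (φ : G ≃* G') :
    Nonempty (L G ≃⋆ₐ[ℂ] L G') := by
  refine iso_of (pullE φ.symm.toEquiv) ?_ fun g => ⟨lam (φ g), lam_mem _, fun ξ => ?_⟩
  · exact (pull_dl φ.symm.toEquiv 1).trans (congrArg dl (map_one φ))
  · ext h
    change ξ (g⁻¹ * φ.symm h) = ξ (φ.symm ((φ g)⁻¹ * h))
    simp

lemma iso_succ {n : ℕ} (hn : 3 ≤ n) :
    Nonempty (L (FreeGroup (Fin n)) ≃⋆ₐ[ℂ] L (FreeGroup (Fin (n + 1)))) := by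
  obtain ⟨V, h1, h2⟩ := limit (κ := Fin n) fun ε hε =>
    key (a := ⟨0, by omega⟩) (b := ⟨1, by omega⟩) (u := ⟨2, by omega⟩) (Fin.ne_of_val_ne zero_ne_one)
      (Fin.ne_of_val_ne two_ne_zero.symm) (Fin.ne_of_val_ne (show 1 ≠ 2 by omega)) hε
  obtain ⟨e1⟩ := iso_of V h1 h2
  obtain ⟨e2⟩ := iso_congr (FreeGroup.freeGroupCongr (finSuccEquiv n).symm)
  exact ⟨e1.trans e2⟩

lemma iso_three {n : ℕ} (hn : 3 ≤ n) :
    Nonempty (L (FreeGroup (Fin 3)) ≃⋆ₐ[ℂ] L (FreeGroup (Fin n))) := by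
  induction n, hn using Nat.le_induction with
  | base => exact ⟨StarAlgEquiv.refl _ _⟩
  | succ n hn ih =>
    obtain ⟨e1⟩ := ih
    obtain ⟨e2⟩ := iso_succ hn
    exact ⟨e1.trans e2⟩

end Vale.Agent.P086
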