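import Mathlib

/-! Part K of P086, abstract half: an approximate inverse of the adjacency operator of a tree. -/

namespace Vale.Agent.P086.K

open scoped InnerProductSpace
open FreeGroup Finset

variable {W E : Type*} [AddCommGroup W] [Module ℂ W] [NormedAddCommGroup E]
  [InnerProductSpace ℂ E]

lemma norm_sum_sq {κ : Type*} (s : Finset κ) (y : κ → E)
    (h : ∀ i ∈ s, ∀ j ∈ s, i ≠ j → ⟪y i, y j⟫_ℂ = 0) :
    ‖∑ i ∈ s, y i‖ ^ 2 = ∑ i ∈ s, ‖y i‖ ^ 2 := by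
  classical
  induction s using Finset.induction_on with
  | empty => simp
  | insert a s ha ih =>
    rw [sum_insert ha, sum_insert ha, ← ih fun i hi j hj => h i (mem_insert_of_mem hi) j
      (mem_insert_of_mem hj), @norm_add_sq ℂ, inner_sum, sum_eq_zero fun j hj =>
        h a (mem_insert_self _ _) j (mem_insert_of_mem hj) fun e => ha (e ▸ hj)]
    simp

/-- Data for the tree argument. -/
structure Tree (W E : Type*) [AddCommGroup W] [Module ℂ W] [NormedAddCommGroup E]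
    [InnerProductSpace ℂ E] where
  v : FreeGroup ℕ →* (W →ₗ[ℂ] W)
  N : W →ₗ[ℂ] E
  w : W
  D : AddSubgroup W
  iso : ∀ g x, x ∈ D → ‖N (v g x)‖ = ‖N x‖
  orth : ∀ g g', g ≠ g' → ⟪N (v g w), N (v g' w)⟫_ℂ = 0
  w_mem : w ∈ D
  v_mem : ∀ g x, x ∈ D → v g x ∈ D
  smul_mem : ∀ (r : ℝ) x, x ∈ D → (r : ℂ) • x ∈ D

namespace Tree

variable (T : Tree W E)

/-- Vectors located in `S`. -/
def Sp (S : Set (FreeGroup ℕ)) : Submodule ℂ W :=
  Submodule.span ℂ ((fun g => T.v g T.w) '' S)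

lemma Sp_v {S S' : Set (FreeGroup ℕ)} (g : FreeGroup ℕ) (h : ∀ ω ∈ S, g * ω ∈ S') {x : W}
    (hx : x ∈ T.Sp S) : T.v g x ∈ T.Sp S' := by
  induction hx using Submodule.span_induction with
  | mem x hx =>
    obtain ⟨ω, hω, rfl⟩ := hx
    exact Submodule.subset_span ⟨g * ω, h ω hω, by simp⟩
  | zero => simp
  | add x y _ _ hx hy => rw [map_add]; exact add_mem hx hy
  | smul c x _ hx => rw [map_smul]; exact Submodule.smul_mem _ _ hx

lemma Sp_mono {S S' : Set (FreeGroup ℕ)} (h : S ⊆ S') : T.Sp S ≤ T.Sp S' :=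
  Submodule.span_mono (Set.image_mono h)

lemma Sp_orth {S S' : Set (FreeGroup ℕ)} (h : Disjoint S S') {x y : W} (hx : x ∈ T.Sp S)
    (hy : y ∈ T.Sp S') : ⟪T.N x, T.N y⟫_ℂ = 0 := by
  induction hx using Submodule.span_induction with
  | mem x hx =>
    obtain ⟨ω, hω, rfl⟩ := hx
    induction hy using Submodule.span_induction with
    | mem y hy =>
      obtain ⟨ω', hω', rfl⟩ := hy
      exact T.orth _ _ fun e => Set.disjoint_left.mp h hω (e ▸ hω')
    | zero => simp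
    | add x y _ _ hx hy => rw [map_add, inner_add_right, hx, hy, add_zero]
    | smul c x _ hx => rw [map_smul, inner_smul_right, hx, mul_zero]
  | zero => simp
  | add x y _ _ hx hy => rw [map_add, inner_add_left, hx, hy, add_zero]
  | smul c x _ hx => rw [map_smul, inner_smul_left, hx, mul_zero]

lemma w_Sp : T.w ∈ T.Sp {1} := Submodule.subset_span ⟨1, rfl, by simp⟩

/-- One step outwards. -/
def up (L : ℕ) (ξ : ℕ → W) (k : ℕ) : W := T.v (of k) (∑ i ∈ (range L).erase k, ξ i)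

/-- The cut off radial solutions. -/
noncomputable def B (L : ℕ) : ℕ → ℕ → W
  | 0 => fun _ => 0
  | n + 1 => fun i => T.v (of i)⁻¹
      (T.w - ((((L : ℝ) - 1)⁻¹ : ℝ) : ℂ) • ∑ j ∈ (range L).erase i, T.up L (B L n) j)

/-- The invariant of a family. -/
def Inv (L : ℕ) (s : Bool) (c : ℝ) (ξ : ℕ → W) : Prop :=
  ∀ i ∈ range L, ξ i ∈ T.D ∧ ξ i ∈ T.Sp (startsWith (i, s)) ∧ ‖T.N (ξ i)‖ ^ 2 = c

variable {T}

lemma Inv.sum {L : ℕ} {s : Bool} {c : ℝ} {ξ : ℕ → W} (h : T.Inv L s c ξ) {F : Finset ℕ}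
    (hF : F ⊆ range L) : ∑ i ∈ F, ξ i ∈ T.D ∧
      ∑ i ∈ F, ξ i ∈ T.Sp {ω | ∃ i ∈ F, ω ∈ startsWith (i, s)} ∧
      ‖T.N (∑ i ∈ F, ξ i)‖ ^ 2 = F.card * c := by
  refine ⟨sum_mem fun i hi => (h i (hF hi)).1, sum_mem fun i hi =>
    T.Sp_mono (S := startsWith (i, s)) (fun ω hω => by exact ⟨i, hi, hω⟩) (h i (hF hi)).2.1, ?_⟩
  rw [map_sum, norm_sum_sq _ _ fun i hi j hj hij => T.Sp_orth
    (startsWith.disjoint_iff_ne.mpr fun e => hij (congrArg Prod.fst e)) (h i (hF hi)).2.1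
    (h j (hF hj)).2.1, sum_congr rfl fun i hi => (h i (hF hi)).2.2, sum_const, nsmul_eq_mul]

lemma not_start {F : Finset ℕ} {k : ℕ} {s : Bool} {ω : FreeGroup ℕ}
    (h : ∃ i ∈ F.erase k, ω ∈ startsWith (i, s)) : ω ∉ startsWith (k, s) := by
  obtain ⟨i, hi, h⟩ := h
  exact Set.disjoint_left.mp (startsWith.disjoint_iff_ne.mpr fun e =>
    (mem_erase.mp hi).1 (congrArg Prod.fst e)) h

lemma card_erase {L k : ℕ} (hk : k ∈ range L) :
    (((range L).erase k).card : ℝ) = (L : ℝ) - 1 := by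
  have : 1 ≤ L := by have := mem_range.mp hk; omega
  rw [card_erase_of_mem hk, card_range, Nat.cast_sub this, Nat.cast_one]

lemma Inv.up {L : ℕ} {c : ℝ} {ξ : ℕ → W} (h : T.Inv L false c ξ) :
    T.Inv L true (((L : ℝ) - 1) * c) (T.up L ξ) := by
  intro k hk
  obtain ⟨h1, h2, h3⟩ := h.sum (erase_subset k (range L))
  refine ⟨T.v_mem _ _ h1, T.Sp_v _ (fun ω hω => ?_) h2, ?_⟩
  · exact startsWith_mk_mul (w := (k, true)) ω (not_start hω)
  · rw [Tree.up, T.iso _ _ h1, h3, card_erase hk]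

lemma inv_B {L : ℕ} (hL : 2 ≤ L) (n : ℕ) : T.Inv L false (n * ‖T.N T.w‖ ^ 2) (T.B L n) := by
  induction n with
  | zero => intro i _; simp [B]
  | succ n ih =>
    intro k hk
    obtain ⟨h1, h2, h3⟩ := ih.up.sum (erase_subset k (range L))
    have hD := sub_mem T.w_mem (T.smul_mem ((L : ℝ) - 1)⁻¹ _ h1)
    have h4 := (T.Sp _).smul_mem ((((L : ℝ) - 1)⁻¹ : ℝ) : ℂ) h2
    refine ⟨T.v_mem _ _ hD, ?_, ?_⟩
    · refine T.Sp_v (S := {ω | ω ∉ startsWith (k, true)}) _ (fun ω hω => ?_)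
        (sub_mem (T.Sp_mono ?_ T.w_Sp) (T.Sp_mono (fun ω hω => not_start hω) h4))
      · exact startsWith_mk_mul (w := (k, false)) ω hω
      · rintro _ rfl h
        exact startsWith.ne_one _ h rfl
    · have ho := T.Sp_orth (S := {1}) (by
        rw [Set.disjoint_singleton_left]
        rintro ⟨i, _, h⟩
        exact startsWith.ne_one _ h rfl) T.w_Sp h4
      have hL1 : (0 : ℝ) < (L : ℝ) - 1 := by
        have : (2 : ℝ) ≤ L := by exact_mod_cast hL
        linarith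
      rw [B, T.iso _ _ hD, map_sub, @norm_sub_sq ℂ, ho, map_smul, norm_smul, mul_pow, h3,
        card_erase hk, Complex.norm_real, Real.norm_of_nonneg (by positivity)]
      simp only [map_zero, mul_zero, sub_zero]
      push_cast
      field_simp
      ring

lemma sum_erase_sum {L : ℕ} (ξ : ℕ → W) :
    ∑ k ∈ range L, ∑ j ∈ (range L).erase k, ξ j = ((L : ℂ) - 1) • ∑ j ∈ range L, ξ j := by
  rw [sum_congr rfl fun k hk => sum_erase_eq_sub hk, sum_sub_distrib, sum_const, card_range,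
    sub_smul, one_smul, Nat.cast_smul_eq_nsmul]

lemma step {L : ℕ} (hL : 2 ≤ L) (n : ℕ) :
    ∑ k ∈ range L, T.v (of k) (∑ i ∈ range L, T.B L (n + 1) i) =
      (L : ℂ) • T.w - ∑ k ∈ range L, T.up L (T.B L n) k +
        ∑ k ∈ range L, T.up L (T.B L (n + 1)) k := by
  have hL1 : (L : ℂ) - 1 ≠ 0 := by
    rw [sub_ne_zero]; exact_mod_cast (by omega : L ≠ 1)
  have e : ∀ k ∈ range L, T.v (of k) (∑ i ∈ range L, T.B L (n + 1) i) =
      (T.w - ((L : ℂ) - 1)⁻¹ • ∑ j ∈ (range L).erase k, T.up L (T.B L n) j) +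
        T.up L (T.B L (n + 1)) k := by
    intro k hk
    rw [← add_sum_erase _ _ hk, map_add]
    congr 1
    rw [B, ← Module.End.mul_apply, ← T.v.map_mul, mul_inv_cancel, T.v.map_one,
      Module.End.one_apply]
    push_cast
    rfl
  rw [sum_congr rfl e, sum_add_distrib, sum_sub_distrib, ← smul_sum, sum_erase_sum, smul_smul,
    inv_mul_cancel₀ hL1, one_smul, sum_const, card_range, Nat.cast_smul_eq_nsmul]

lemma tele {L : ℕ} (hL : 2 ≤ L) (J : ℕ) :
    ∑ k ∈ range L, T.v (of k) (∑ n ∈ range J, ∑ i ∈ range L, T.B L (n + 1) i) =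
      ((J : ℂ) * L) • T.w + ∑ k ∈ range L, T.up L (T.B L J) k := by
  induction J with
  | zero => simp [up, B]
  | succ J ih =>
    simp only [sum_range_succ _ J, map_add, sum_add_distrib]
    rw [ih, step hL]
    push_cast
    module

theorem approx (T : Tree W E) {ε : ℝ} (hε : 0 < ε) (L0 : ℕ) : ∃ L : ℕ, L0 < L ∧ ∃ x ∈ T.D,
    ‖T.N x‖ ≤ ε ∧ ‖T.N (∑ k ∈ range L, T.v (of k) x - T.w)‖ ≤ ε := by
  obtain ⟨c, hc⟩ : ∃ c, c = ‖T.N T.w‖ ^ 2 := ⟨_, rfl⟩
  have c0 : 0 ≤ c := by rw [hc]; positivity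
  obtain ⟨J, hJ⟩ := exists_nat_gt (c / ε ^ 2)
  have J0 : (0 : ℝ) < J := lt_of_le_of_lt (by positivity) hJ
  obtain ⟨L, hL⟩ := exists_nat_gt (J * c / ε ^ 2 + L0 + 2)
  have p0 : 0 ≤ J * c / ε ^ 2 := by positivity
  have p1 : (0 : ℝ) ≤ L0 := Nat.cast_nonneg _
  have hL2 : 2 ≤ L := by exact_mod_cast (by linarith : (2 : ℝ) ≤ L)
  have L1 : (0 : ℝ) < L := by linarith
  rw [div_lt_iff₀ (by positivity)] at hJ
  have hL' : J * c < L * ε ^ 2 := by
    rw [← div_lt_iff₀ (by positivity)]; linarith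
  have hB := fun n => (inv_B (T := T) hL2 n).sum (Subset.refl (range L))
  have hU := ((inv_B (T := T) hL2 J).up.sum (Subset.refl (range L))).2.2
  simp only [card_range, ← hc] at hB hU
  refine ⟨L, by exact_mod_cast (by linarith : (L0 : ℝ) < L),
    ((((J : ℝ) * L)⁻¹ : ℝ) : ℂ) • ∑ n ∈ range J, ∑ i ∈ range L, T.B L (n + 1) i,
    T.smul_mem _ _ (sum_mem fun n _ => (hB (n + 1)).1), ?_, ?_⟩
  · have h1 : ∀ n ∈ range J, ‖T.N (∑ i ∈ range L, T.B L (n + 1) i)‖ ≤ L * ε := by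
      intro n hn
      refine le_of_sq_le_sq ?_ (by positivity)
      have : ((n + 1 : ℕ) : ℝ) ≤ J := by exact_mod_cast mem_range.mp hn
      rw [(hB (n + 1)).2.2]
      have := mul_le_mul_of_nonneg_right this c0
      nlinarith
    have h2 := (norm_sum_le _ _).trans (sum_le_sum h1)
    rw [sum_const, card_range, nsmul_eq_mul, ← map_sum] at h2
    rw [map_smul, norm_smul, Complex.norm_real, Real.norm_of_nonneg (by positivity),
      inv_mul_le_iff₀ (by positivity)]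
    linarith
  · have hne : (J : ℂ) * L ≠ 0 := by exact_mod_cast (by positivity : (J : ℝ) * L ≠ 0)
    have e : ∑ k ∈ range L, T.v (of k) (((((J : ℝ) * L)⁻¹ : ℝ) : ℂ) •
        ∑ n ∈ range J, ∑ i ∈ range L, T.B L (n + 1) i) - T.w =
        ((((J : ℝ) * L)⁻¹ : ℝ) : ℂ) • ∑ k ∈ range L, T.up L (T.B L J) k := by
      simp only [map_smul]
      rw [← smul_sum, tele hL2, smul_add, smul_smul]
      push_cast
      rw [inv_mul_cancel₀ hne, one_smul, add_sub_cancel_left]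
    rw [e, map_smul, norm_smul, Complex.norm_real, Real.norm_of_nonneg (by positivity),
      inv_mul_le_iff₀ (by positivity)]
    refine le_of_sq_le_sq ?_ (by positivity)
    rw [hU]
    have h3 : 0 ≤ L * (J * c) := by positivity
    have h4 := mul_le_mul_of_nonneg_left hJ.le (by positivity : (0 : ℝ) ≤ L * L * J)
    nlinarith

end Tree

section ring
variable {R : Type*} [Ring R] [Algebra ℂ R]

/-- Conjugation as a homomorphism. -/
def cjh (l : FreeGroup ℕ →* R) : FreeGroup ℕ →* (R →ₗ[ℂ] R) where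
  toFun g := LinearMap.mulRight ℂ (l g⁻¹) ∘ₗ LinearMap.mulLeft ℂ (l g)
  map_one' := by ext x; simp
  map_mul' g h := by ext x; simp [mul_assoc]

lemma cjh_apply (l : FreeGroup ℕ →* R) (g : FreeGroup ℕ) (x : R) :
    cjh l g x = l g * x * l g⁻¹ := rfl

theorem approx_ring (l : FreeGroup ℕ →* R) (N : R →ₗ[ℂ] E) (H : R) (c : ℝ) (D : AddSubgroup R)
    (iso : ∀ g x, x ∈ D → ‖N (l g * x * l g⁻¹)‖ = ‖N x‖)
    (orth : ∀ g g', g ≠ g' → ⟪N (l g * (H - (c : ℂ) • 1) * l g⁻¹),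
      N (l g' * (H - (c : ℂ) • 1) * l g'⁻¹)⟫_ℂ = 0)
    (hH : H ∈ D) (h1 : (1 : R) ∈ D) (n1 : ‖N 1‖ = 1)
    (v_mem : ∀ g x, x ∈ D → l g * x * l g⁻¹ ∈ D)
    (smul_mem : ∀ (r : ℝ) x, x ∈ D → (r : ℂ) • x ∈ D) {ε : ℝ} (hε : 0 < ε) :
    ∃ L : ℕ, ∃ x ∈ D, ‖N x‖ ≤ ε ∧ ‖N (∑ k ∈ range L, l (of k) * x * l (of k)⁻¹ - H)‖ ≤ ε := by
  obtain ⟨L0, hL0⟩ := exists_nat_gt (|c| / (ε / 2))
  obtain ⟨L, hL, x, hx, h2, h3⟩ := Tree.approx
    { v := cjh l
      N := N
      w := H - (c : ℂ) • 1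
      D := D
      iso := iso
      orth := orth
      w_mem := sub_mem hH (smul_mem c 1 h1)
      v_mem := v_mem
      smul_mem := smul_mem } (half_pos hε) L0
  simp only [cjh_apply] at hx h2 h3
  have L1 : (L0 : ℝ) < L := by exact_mod_cast hL
  have L2 : (0 : ℝ) < L := lt_of_le_of_lt (Nat.cast_nonneg _) L1
  have hL3 : (L : ℂ) ≠ 0 := by exact_mod_cast L2.ne'
  refine ⟨L, _, add_mem hx (smul_mem (c / L) 1 h1), ?_, ?_⟩
  · rw [N.map_add, N.map_smul]
    refine (norm_add_le _ _).trans ?_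
    have h4 : |c| / L ≤ ε / 2 := by
      rw [div_lt_iff₀ (half_pos hε)] at hL0
      rw [div_le_iff₀ L2]
      nlinarith
    rw [norm_smul, n1, Complex.norm_real, Real.norm_eq_abs, abs_div, abs_of_pos L2]
    linarith
  · have e : ∑ k ∈ range L, l (of k) * (x + ((c / L : ℝ) : ℂ) • 1) * l (of k)⁻¹ - H =
        ∑ k ∈ range L, l (of k) * x * l (of k)⁻¹ - (H - (c : ℂ) • 1) := by
      simp only [mul_add, add_mul, mul_smul_comm, smul_mul_assoc, mul_one, ← l.map_mul,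
        mul_inv_cancel, l.map_one, sum_add_distrib, sum_const, card_range]
      rw [← Nat.cast_smul_eq_nsmul ℂ, smul_smul]
      push_cast
      rw [mul_div_cancel₀ _ hL3]
      abel
    rw [e]
    exact h3.trans (half_le_self hε.le)

end ring

end Vale.Agent.P086.K
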