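import Vale.Agent.P086.Basic

/-! Part K of P086: the conjugates of the powers of `t` by words in the `pp k` are distinct. -/

namespace Vale.Agent.P086.K

open FreeGroup

/-- The model set. -/
abbrev X := FreeGroup ℤ × ℤ

/-- Shift of the generators. -/
def sh : FreeGroup ℤ ≃* FreeGroup ℤ := freeGroupCongr (Equiv.addRight 1)

/-- The shift, as a permutation of the model. -/
def sg : Equiv.Perm X := Equiv.prodCongr sh.toEquiv (Equiv.refl ℤ)

/-- Left multiplication on the model. -/
def ml : FreeGroup ℤ →* Equiv.Perm X where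
  toFun ω := Equiv.prodCongr (Equiv.mulLeft ω) (Equiv.refl ℤ)
  map_one' := by ext x <;> simp
  map_mul' a b := by ext x <;> simp [mul_assoc]

/-- The lamp at the origin. -/
def lm : Multiplicative ℤ →* Equiv.Perm X where
  toFun n := Equiv.prodCongrRight fun ω => Equiv.addRight (if ω = 1 then n.toAdd else 0)
  map_one' := by ext x <;> simp
  map_mul' a b := by
    ext ⟨ω, z⟩
    · simp
    · by_cases h : ω = 1 <;> simp [h, add_comm, add_left_comm]

lemma ml_apply (ω ω' : FreeGroup ℤ) (z : ℤ) : ml ω (ω', z) = (ω * ω', z) := rfl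

lemma lm_apply (n : ℤ) (ω : FreeGroup ℤ) (z : ℤ) :
    (lm (Multiplicative.ofAdd 1) ^ n) (ω, z) = (ω, z + if ω = 1 then n else 0) := by
  rw [← map_zpow, ← ofAdd_zsmul, smul_eq_mul, mul_one]
  rfl

lemma sg_ml (k : ℤ) : sg * ml (of k) * sg⁻¹ = ml (of (k + 1)) := by
  rw [mul_inv_eq_iff_eq_mul]
  ext ⟨ω, z⟩
  · change sh (of k * ω) = of (k + 1) * sh ω
    rw [sh.map_mul]
    rfl
  · rfl

variable {ι : Type*} {a b u t : ι}

open Classical in
/-- The action on the model. -/
noncomputable def ph (a b t : ι) : FreeGroup ι →* Equiv.Perm X :=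
  FreeGroup.lift fun j => if j = a then sg else if j = b then ml (of 0) else
    if j = t then lm (Multiplicative.ofAdd 1) else 1

lemma ph_yy (hab : a ≠ b) (k : ℕ) : ph a b t (yy (of a) (of b) k) = ml (of (k : ℤ)) := by
  have h1 : ph a b t (of a) = sg := by simp [ph]
  have h2 : ph a b t (of b) = ml (of 0) := by simp [ph, hab.symm]
  induction k with
  | zero => simpa [yy] using h2
  | succ k ih =>
    have : yy (of a) (of b) (k + 1) = of a * yy (of a) (of b) k * (of a)⁻¹ := by
      simp only [yy, pow_succ']; group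
    rw [this, MonoidHom.map_mul, MonoidHom.map_mul, MonoidHom.map_inv, ih, h1, sg_ml]
    simp

lemma ph_pp (hab : a ≠ b) (hau : a ≠ u) (hbu : b ≠ u) (hut : t ≠ u) (k : ℕ) :
    ph a b t (pp (of a) (of b) (of u) k) = ml (of (k : ℤ)) := by
  have h1 : ph a b t (of u) = 1 := by simp [ph, hau.symm, hbu.symm, hut.symm]
  have h2 : ∀ n, ph a b t (gg (of a) (of b) (of u) n) = 1 := by
    intro n
    induction n with
    | zero => simp [gg]
    | succ n ih => simp [gg, ih, h1]
  rw [pp, MonoidHom.map_mul, h2, one_mul, ph_yy hab]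

/-- The words in the initial segments. -/
def ps (a b u : ι) : FreeGroup ℕ →* FreeGroup ι :=
  FreeGroup.lift fun k => pp (of a) (of b) (of u) k

lemma ph_ps (hab : a ≠ b) (hau : a ≠ u) (hbu : b ≠ u) (hut : t ≠ u) (ω : FreeGroup ℕ) :
    ph a b t (ps a b u ω) = ml (FreeGroup.map (fun k : ℕ => (k : ℤ)) ω) := by
  have : (ph a b t).comp (ps a b u) = ml.comp (FreeGroup.map fun k : ℕ => (k : ℤ)) :=
    FreeGroup.ext_hom _ _ fun k => by simp [ps, ph_pp hab hau hbu hut]
  exact DFunLike.congr_fun this ω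

lemma ph_t (hat : a ≠ t) (hbt : b ≠ t) : ph a b t (of t) = lm (Multiplicative.ofAdd 1) := by
  simp [ph, hat.symm, hbt.symm]

lemma distinct (hab : a ≠ b) (hau : a ≠ u) (hbu : b ≠ u) (hat : a ≠ t) (hbt : b ≠ t)
    (hut : t ≠ u) {ω ω' : FreeGroup ℕ} (h : ω ≠ ω') {n : ℤ} (hn : n ≠ 0) (m : ℤ) :
    ps a b u ω * of t ^ n * (ps a b u ω)⁻¹ ≠ ps a b u ω' * of t ^ m * (ps a b u ω')⁻¹ := by
  intro e
  have hi := FreeGroup.map_injective (f := fun k : ℕ => (k : ℤ)) Nat.cast_injective
  have e2 := congrArg (fun x => ph a b t x (FreeGroup.map (fun k : ℕ => (k : ℤ)) ω, 0)) e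
  simp only [MonoidHom.map_mul, MonoidHom.map_inv, map_zpow, ph_ps hab hau hbu hut, ph_t hat hbt,
    Equiv.Perm.mul_apply] at e2
  rw [← ml.map_inv, ← ml.map_inv] at e2
  simp only [ml_apply, lm_apply, inv_mul_cancel, if_pos,
    if_neg fun h' => h (hi (inv_mul_eq_one.mp h').symm)] at e2
  exact hn (by simpa using congrArg Prod.snd e2)

lemma zpow_ne (hat : a ≠ t) (hbt : b ≠ t) {n : ℤ} (hn : n ≠ 0) : (of t : FreeGroup ι) ^ n ≠ 1 := by
  intro e
  have e2 := congrArg (fun x => ph a b t x (1, 0)) e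
  simp only [map_zpow, ph_t hat hbt, lm_apply, MonoidHom.map_one] at e2
  exact hn (by simpa using congrArg Prod.snd e2)

end Vale.Agent.P086.K
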