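import Vale.Agent.P086.Basic

/-! Part D of P086: the derivation. -/

namespace Vale.Agent.P086

open scoped InnerProductSpace ComplexConjugate
open FreeGroup (of)

namespace D

variable {ι R : Type*} [Ring R] [Algebra ℂ R] (φ : FreeGroup ι →* R)

omit [Algebra ℂ R] in
lemma mul_inv (g : FreeGroup ι) : φ g * φ g⁻¹ = 1 := by rw [← map_mul, mul_inv_cancel, map_one]

omit [Algebra ℂ R] in
lemma inv_mul (g : FreeGroup ι) : φ g⁻¹ * φ g = 1 := by rw [← map_mul, inv_mul_cancel, map_one]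

/-- Affine permutations. -/
def aff (x : R) (g : FreeGroup ι) : Equiv.Perm R where
  toFun y := x + φ g * y * φ g⁻¹
  invFun y := φ g⁻¹ * (y - x) * φ g
  left_inv y := by
    simp only [add_sub_cancel_left]
    rw [← mul_assoc, ← mul_assoc, inv_mul, one_mul, mul_assoc, inv_mul, mul_one]
  right_inv y := by
    simp only []
    rw [← mul_assoc, ← mul_assoc, mul_inv, one_mul, mul_assoc, mul_inv, mul_one, add_sub_cancel]

omit [Algebra ℂ R] in
lemma exists_cocycle (x : ι → R) : ∃ c : FreeGroup ι → R,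
    (∀ v w, c (v * w) = c v + φ v * c w * φ v⁻¹) ∧ ∀ j, c (of j) = x j := by
  let F : FreeGroup ι →* Equiv.Perm R := FreeGroup.lift fun j => aff φ (x j) (of j)
  have key : ∀ w y, F w y = F w 0 + φ w * y * φ w⁻¹ := by
    intro w
    induction w using FreeGroup.induction_on with
    | C1 => intro y; simp
    | of j => intro y; simp [F, aff]
    | inv_of j _ =>
      intro y
      have e : ∀ y, F (of j)⁻¹ y = φ (of j)⁻¹ * (y - x j) * φ (of j) := fun y => by
        rw [map_inv, FreeGroup.lift_apply_of]; rfl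
      rw [e, e, inv_inv]
      noncomm_ring
    | mul v w hv hw =>
      intro y
      rw [map_mul, Equiv.Perm.mul_apply, Equiv.Perm.mul_apply, hv (F w y), hv (F w 0), hw y,
        mul_inv_rev, map_mul, map_mul]
      noncomm_ring
  refine ⟨fun w => F w 0, fun v w => ?_, fun j => by simp [F, aff]⟩
  simp only [map_mul, Equiv.Perm.mul_apply]
  exact key v _

lemma exists_der (b : Module.Basis (FreeGroup ι) ℂ R) (hb : ∀ g, b g = φ g) (x : ι → R) :
    ∃ δ : R →ₗ[ℂ] R, (∀ y z, δ (y * z) = δ y * z + y * δ z) ∧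
      ∀ j, δ (φ (of j)) = x j * φ (of j) := by
  obtain ⟨c, h1, h2⟩ := exists_cocycle φ x
  let δ : R →ₗ[ℂ] R := b.constr ℂ fun g => c g * φ g
  have hδ : ∀ g, δ (φ g) = c g * φ g := fun g => by rw [← hb, b.constr_basis, hb]
  refine ⟨δ, fun y z => ?_, fun j => by rw [hδ, h2]⟩
  have : (LinearMap.mul ℂ R).compr₂ δ =
      (LinearMap.mul ℂ R) ∘ₗ δ + (LinearMap.mul ℂ R).compl₂ δ := by
    refine b.ext fun v => b.ext fun w => ?_
    simp only [LinearMap.compr₂_apply, LinearMap.mul_apply', LinearMap.add_apply,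
      LinearMap.comp_apply, LinearMap.compl₂_apply, hb]
    rw [← map_mul φ, hδ, hδ, hδ, h1, map_mul φ, add_mul, mul_assoc _ (φ v⁻¹),
      ← mul_assoc (φ v⁻¹), inv_mul, one_mul, mul_assoc, mul_assoc]
  exact congrArg (fun T => T y z) this

variable {φ} {δ : R →ₗ[ℂ] R} (hδ : ∀ y z, δ (y * z) = δ y * z + y * δ z)
include hδ

lemma der_one : δ 1 = 0 := by
  have := hδ 1 1
  rw [mul_one, mul_one, one_mul] at this
  exact left_eq_add.1 this

lemma der_inv (g : FreeGroup ι) : δ (φ g⁻¹) = -(φ g⁻¹ * δ (φ g) * φ g⁻¹) := by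
  have h := hδ (φ g⁻¹) (φ g)
  rw [inv_mul, der_one hδ] at h
  have h2 := congrArg (· * φ g⁻¹) h
  simp only [zero_mul, add_mul] at h2
  rw [mul_assoc, mul_inv, mul_one] at h2
  exact eq_neg_of_add_eq_zero_left h2.symm

lemma der_zero_mul {v w : FreeGroup ι} (hv : δ (φ v) = 0) (hw : δ (φ w) = 0) :
    δ (φ (v * w)) = 0 := by rw [map_mul, hδ, hv, hw]; simp

lemma der_zero_inv {v : FreeGroup ι} (hv : δ (φ v) = 0) : δ (φ v⁻¹) = 0 := by
  rw [der_inv hδ, hv]; simp

lemma der_zero_pow {v : FreeGroup ι} (hv : δ (φ v) = 0) (n : ℕ) : δ (φ (v ^ n)) = 0 := by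
  induction n with
  | zero => rw [pow_zero, map_one, der_one hδ]
  | succ n ih => rw [pow_succ]; exact der_zero_mul hδ ih hv

lemma der_zero_zpow {v : FreeGroup ι} (hv : δ (φ v) = 0) (n : ℤ) : δ (φ (v ^ n)) = 0 := by
  rcases n with n | n
  · simpa using der_zero_pow hδ hv n
  · rw [zpow_negSucc]; exact der_zero_inv hδ (der_zero_pow hδ hv _)

lemma c_mem (T : AddSubgroup R) (hT : ∀ g y, y ∈ T → φ g * y * φ g⁻¹ ∈ T)
    (hx : ∀ j, δ (φ (of j)) * φ (of j)⁻¹ ∈ T) (w : FreeGroup ι) : δ (φ w) * φ w⁻¹ ∈ T := by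
  induction w using FreeGroup.induction_on with
  | C1 => rw [map_one, der_one hδ, zero_mul]; exact zero_mem _
  | of j => exact hx j
  | inv_of j h =>
    have := neg_mem (hT (of j)⁻¹ _ h)
    rw [der_inv hδ, neg_mul]
    simpa only [mul_assoc] using this
  | mul v w hv hw =>
    have e : δ (φ (v * w)) * φ (v * w)⁻¹ =
        δ (φ v) * φ v⁻¹ + φ v * (δ (φ w) * φ w⁻¹) * φ v⁻¹ := by
      rw [map_mul, hδ, mul_inv_rev, map_mul, add_mul, mul_assoc, ← mul_assoc (φ w), mul_inv,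
        one_mul]
      simp only [mul_assoc]
    rw [e]
    exact add_mem hv (hT _ _ hw)

lemma der_conj (b : FreeGroup ι) {s : FreeGroup ι} (hs : δ (φ s) = 0) :
    δ (φ (b * s * b⁻¹)) = δ (φ b) * φ b⁻¹ * φ (b * s * b⁻¹) -
      φ (b * s * b⁻¹) * (δ (φ b) * φ b⁻¹) := by
  rw [map_mul φ, map_mul φ, hδ, hδ, hs, der_inv hδ]
  have e : δ (φ b) * φ b⁻¹ * (φ b * φ s * φ b⁻¹) = δ (φ b) * φ s * φ b⁻¹ := by
    rw [mul_assoc (φ b), mul_assoc, ← mul_assoc (φ b⁻¹), inv_mul, one_mul, mul_assoc]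
  rw [e]
  noncomm_ring

lemma der_gg {u a b : FreeGroup ι} {x : R} (hu : δ (φ u) = x * φ u) (ha : δ (φ a) = 0)
    (hb : δ (φ b) = 0) (n : ℕ) : δ (φ (gg a b u n)) =
      (∑ k ∈ Finset.range n, φ (pp a b u k) * x * φ (pp a b u k)⁻¹) * φ (gg a b u n) := by
  induction n with
  | zero => simp [gg, der_one hδ]
  | succ n ih =>
    have hy : δ (φ (yy a b n)) = 0 :=
      der_zero_mul hδ (der_zero_mul hδ (der_zero_pow hδ ha n) hb)
        (der_zero_inv hδ (der_zero_pow hδ ha n))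
    have e : (pp a b u n)⁻¹ * gg a b u (n + 1) = u * (yy a b n)⁻¹ := by
      simp [pp, gg, mul_assoc]
    have e2 : φ (pp a b u n) * x * φ (pp a b u n)⁻¹ * φ (gg a b u (n + 1)) =
        φ (gg a b u n) * (φ (yy a b n) * (x * φ u) * φ (yy a b n)⁻¹) := by
      rw [mul_assoc, ← map_mul, e, pp, map_mul, map_mul]
      simp only [mul_assoc]
    rw [Finset.sum_range_succ, add_mul, e2, gg, map_mul, hδ, ih, map_mul, map_mul, hδ, hδ, hy,
      der_zero_inv hδ hy, hu]
    simp only [mul_assoc, zero_mul, zero_add, mul_zero, add_zero]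

lemma der_star [StarRing R] [StarModule ℂ R] (hφ : ∀ g, star (φ g) = φ g⁻¹)
    (hx : ∀ j, star (δ (φ (of j)) * φ (of j)⁻¹) = -(δ (φ (of j)) * φ (of j)⁻¹))
    (y : R) (hy : y ∈ Submodule.span ℂ (Set.range φ)) : δ (star y) = star (δ y) := by
  have key := c_mem hδ (skewAdjoint R) (fun g y hy => by
    rw [skewAdjoint.mem_iff] at hy ⊢
    rw [star_mul, star_mul, hφ, hφ, hy, inv_inv]
    simp [mul_assoc]) hx
  induction hy using Submodule.span_induction with
  | mem y hy =>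
    obtain ⟨g, rfl⟩ := hy
    have h1 := skewAdjoint.mem_iff.1 (key g)
    have h2 : δ (φ g) = δ (φ g) * φ g⁻¹ * φ g := by rw [mul_assoc, inv_mul, mul_one]
    rw [hφ, der_inv hδ]
    conv_rhs => rw [h2, star_mul, h1, hφ]
    simp [mul_assoc]
  | zero => simp
  | add x y _ _ hx hy => rw [star_add, map_add, map_add, star_add, hx, hy]
  | smul c x _ hx => rw [star_smul, map_smul, map_smul, star_smul, hx]

lemma der_trace (f : R →ₗ[ℂ] ℂ) (T : AddSubgroup R) {t : FreeGroup ι} (ht : δ (φ t) = 0)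
    (hT : ∀ g y, y ∈ T → φ g * y * φ g⁻¹ ∈ T) (hx : ∀ j, δ (φ (of j)) * φ (of j)⁻¹ ∈ T)
    (hf : ∀ y g, f (y * φ g) = f (φ g * y))
    (h1 : ∀ w, (¬ ∃ (b : FreeGroup ι) (n : ℤ), w = b * t ^ n * b⁻¹) → ∀ y ∈ T, f (y * φ w) = 0)
    (y : R) (hy : y ∈ Submodule.span ℂ (Set.range φ)) : f (δ y) = 0 := by
  induction hy using Submodule.span_induction with
  | mem y hy =>
    obtain ⟨w, rfl⟩ := hy
    by_cases e : ∃ (b : FreeGroup ι) (n : ℤ), w = b * t ^ n * b⁻¹
    · obtain ⟨b, n, rfl⟩ := e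
      rw [der_conj hδ b (der_zero_zpow hδ ht n), map_sub, hf, sub_self]
    · have h2 : δ (φ w) = δ (φ w) * φ w⁻¹ * φ w := by rw [mul_assoc, inv_mul, mul_one]
      rw [h2]
      exact h1 w e _ (c_mem hδ T hT hx w)
  | zero => simp
  | add x y _ _ hx hy => rw [map_add, map_add, hx, hy, add_zero]
  | smul c x _ hx => rw [map_smul, map_smul, hx, smul_zero]

end D

section inst
variable {G : Type*} [Group G]

/-- `lp'` as a homomorphism. -/
noncomputable def lpH : G →* P G :=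
  ⟨⟨lp', Subtype.ext lam_one⟩, fun g h => Subtype.ext (lam_mul g h)⟩

lemma span_lpH (y : P G) : y ∈ Submodule.span ℂ (Set.range (lpH : G → P G)) := by
  obtain ⟨y, hy⟩ := y
  have h := mem_P.1 hy
  induction h using Submodule.span_induction with
  | mem x hx => obtain ⟨g, rfl⟩ := hx; exact Submodule.subset_span ⟨g, rfl⟩
  | zero => exact zero_mem _
  | add x z hx hz h1 h2 => exact add_mem (h1 (mem_P.2 hx)) (h2 (mem_P.2 hz))
  | smul c x hx h1 => exact Submodule.smul_mem _ c (h1 (mem_P.2 hx))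

lemma li_lpH : LinearIndependent ℂ (lpH : G → P G) := by
  let E : P G →ₗ[ℂ] L2 G :=
    { toFun := fun x => (x : L2 G →L[ℂ] L2 G) (dl 1)
      map_add' := fun _ _ => rfl
      map_smul' := fun _ _ => rfl }
  refine LinearIndependent.of_comp E ?_
  have : E ∘ (lpH : G → P G) = dl := funext fun g => (lam_dl g 1).trans (by rw [mul_one])
  rw [this]
  exact orthonormal_dl.linearIndependent

lemma tr_lam {g : G} (hg : g ≠ 1) : tr (lam g) = 0 := by
  rw [tr, lam_dl, mul_one, inner_dl, dl_apply, if_neg hg.symm]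

lemma tr_comm {x : L2 G →L[ℂ] L2 G} (hx : x ∈ L G) (g : G) : tr (x * lam g) = tr (lam g * x) := by
  rw [tr, tr, ContinuousLinearMap.mul_apply, ContinuousLinearMap.mul_apply, lam_dl, mul_one,
    apply_dl hx, inner_dl, inner_dl]
  simp [rho, lam]

lemma tr_add (x y : L2 G →L[ℂ] L2 G) : tr (x + y) = tr x + tr y := by
  rw [tr, ContinuousLinearMap.add_apply, inner_add_right]; rfl

lemma tr_smul (c : ℂ) (x : L2 G →L[ℂ] L2 G) : tr (c • x) = c * tr x := by
  rw [tr, ContinuousLinearMap.smul_apply, inner_smul_right]; rfl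

/-- The trace on the group algebra. -/
noncomputable def trP : P G →ₗ[ℂ] ℂ where
  toFun x := tr (x : L2 G →L[ℂ] L2 G)
  map_add' x y := tr_add (x : L2 G →L[ℂ] L2 G) (y : L2 G →L[ℂ] L2 G)
  map_smul' c x := by
    rw [RingHom.id_apply, smul_eq_mul, ← tr_smul]
    rfl

/-- `Cj` inside the group algebra. -/
def CjP (t : G) : AddSubgroup (P G) where
  carrier := {y | (y : L2 G →L[ℂ] L2 G) ∈ Cj t}
  add_mem' hx hy := (Cj t).add_mem hx hy
  zero_mem' := (Cj t).zero_mem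
  neg_mem' hx := (Cj t).neg_mem hx

lemma cj_conj {t : G} (g : G) {y : L2 G →L[ℂ] L2 G} (hy : y ∈ Cj t) :
    lam g * y * lam g⁻¹ ∈ Cj t := by
  induction hy using Submodule.span_induction with
  | mem y hy =>
    obtain ⟨b, n, rfl⟩ := hy
    refine Submodule.subset_span ⟨g * b, n, ?_⟩
    rw [← lam_mul, ← lam_mul]; congr 1; group
  | zero => rw [mul_zero, zero_mul]; exact zero_mem _
  | add x y _ _ hx hy => rw [mul_add, add_mul]; exact add_mem hx hy
  | smul c x _ hx => rw [mul_smul_comm, smul_mul_assoc]; exact Submodule.smul_mem _ c hx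

lemma cj_tr {t w : G} (e : ¬ ∃ (b : G) (n : ℤ), w = b * t ^ n * b⁻¹) {y : L2 G →L[ℂ] L2 G}
    (hy : y ∈ Cj t) : tr (y * lam w) = 0 := by
  induction hy using Submodule.span_induction with
  | mem y hy =>
    obtain ⟨b, n, rfl⟩ := hy
    rw [← lam_mul]
    refine tr_lam fun h => e ⟨b, -n, ?_⟩
    rw [eq_inv_of_mul_eq_one_right h]; group
  | zero => rw [zero_mul]; simp [tr]
  | add x y _ _ hx hy => rw [add_mul, tr_add, hx, hy, add_zero]
  | smul c x _ hx => rw [smul_mul_assoc, tr_smul, hx, mul_zero]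

end inst

section der
variable {ι : Type*}

theorem exists_der (u : ι) (h : P (FreeGroup ι)) : ∃ δ : P (FreeGroup ι) →ₗ[ℂ] P (FreeGroup ι),
    IsDer δ ∧ δ (lp' (of u)) = Complex.I • h * lp' (of u) ∧
      ∀ j, j ≠ u → δ (lp' (of j)) = 0 := by
  classical
  obtain ⟨δ, h1, h2⟩ := D.exists_der (R := P (FreeGroup ι)) lpH
    (Module.Basis.mk li_lpH fun y _ => span_lpH y) (fun g => Module.Basis.mk_apply _ _ g)
    (fun j => if j = u then Complex.I • h else 0)
  refine ⟨δ, h1, (h2 u).trans ?_, fun j hj => (h2 j).trans ?_⟩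
  · rw [if_pos rfl]; rfl
  · rw [if_neg hj, zero_mul]

lemma c_gen {u : ι} {h : P (FreeGroup ι)} {δ : P (FreeGroup ι) →ₗ[ℂ] P (FreeGroup ι)}
    (hu : δ (lp' (of u)) = Complex.I • h * lp' (of u))
    (h0 : ∀ j, j ≠ u → δ (lp' (of j)) = 0) (j : ι) :
    δ (lpH (of j)) * lpH (of j)⁻¹ = Complex.I • h ∨ δ (lpH (of j)) * lpH (of j)⁻¹ = 0 := by
  by_cases e : j = u
  · subst e
    left
    have : δ (lpH (of j)) = Complex.I • h * lpH (of j) := hu
    rw [this, mul_assoc, D.mul_inv, mul_one]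
  · right
    have : δ (lpH (of j)) = 0 := h0 j e
    rw [this, zero_mul]

theorem der_star {u : ι} {h : P (FreeGroup ι)} {δ : P (FreeGroup ι) →ₗ[ℂ] P (FreeGroup ι)}
    (hδ : IsDer δ) (hu : δ (lp' (of u)) = Complex.I • h * lp' (of u))
    (h0 : ∀ j, j ≠ u → δ (lp' (of j)) = 0) (hs : star h = h) (x : P (FreeGroup ι)) :
    δ (star x) = star (δ x) := by
  refine D.der_star (φ := lpH) hδ (fun g => Subtype.ext (star_lam g)) (fun j => ?_) x (span_lpH x)
  rcases c_gen hu h0 j with e | e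
  · rw [e, star_smul, hs, Complex.star_def, Complex.conj_I, neg_smul]
  · rw [e, star_zero, neg_zero]

theorem der_trace {u t : ι} (hut : t ≠ u) {h : P (FreeGroup ι)}
    {δ : P (FreeGroup ι) →ₗ[ℂ] P (FreeGroup ι)}
    (hδ : IsDer δ) (hu : δ (lp' (of u)) = Complex.I • h * lp' (of u))
    (h0 : ∀ j, j ≠ u → δ (lp' (of j)) = 0)
    (hc : (h : L2 (FreeGroup ι) →L[ℂ] L2 (FreeGroup ι)) ∈ Cj (of t)) (x : P (FreeGroup ι)) :
    tr (δ x : L2 (FreeGroup ι) →L[ℂ] L2 (FreeGroup ι)) = 0 := by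
  refine D.der_trace (φ := lpH) hδ trP (CjP (of t)) (h0 t hut) (fun g y hy => cj_conj g hy)
    (fun j => ?_) (fun y g => tr_comm (P_le y.2) g) (fun w hw y hy => cj_tr hw hy) x (span_lpH x)
  rcases c_gen hu h0 j with e | e
  · rw [e]; exact Submodule.smul_mem (Cj (of t)) Complex.I hc
  · rw [e]; exact zero_mem _

theorem der_gg {u a b : ι} (hau : a ≠ u) (hbu : b ≠ u) {h : P (FreeGroup ι)}
    {δ : P (FreeGroup ι) →ₗ[ℂ] P (FreeGroup ι)}
    (hδ : IsDer δ) (hu : δ (lp' (of u)) = Complex.I • h * lp' (of u))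
    (h0 : ∀ j, j ≠ u → δ (lp' (of j)) = 0) (n : ℕ) :
    δ (lp' (gg (of a) (of b) (of u) n)) = Complex.I • (∑ k ∈ Finset.range n,
      lp' (pp (of a) (of b) (of u) k) * h * lp' (pp (of a) (of b) (of u) k)⁻¹) *
        lp' (gg (of a) (of b) (of u) n) := by
  refine (D.der_gg (φ := lpH) hδ (x := Complex.I • h) hu (h0 a hau) (h0 b hbu) n).trans ?_
  rw [Finset.smul_sum]
  refine congrArg (· * _) (Finset.sum_congr rfl fun k _ => ?_)
  rw [mul_smul_comm, smul_mul_assoc]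
  rfl

end der

end Vale.Agent.P086
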