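import Vale.Agent.P086.E1

/-! Part E: the flow of a trace preserving derivation. -/

namespace Vale.Agent.P086

open scoped InnerProductSpace ComplexConjugate
open FreeGroup

namespace E

section abs
variable {R : Type*} [Ring R] [StarRing R] [Algebra ℂ R] [StarModule ℂ R]
variable {H : Type*} [NormedAddCommGroup H] [InnerProductSpace ℂ H] [CompleteSpace H]
variable {i : R →⋆ₐ[ℂ] (H →L[ℂ] H)} {δ : R →ₗ[ℂ] R}

/-- The vector functional. -/
noncomputable def vf (Ω : H) : (H →L[ℂ] H) →L[ℂ] ℂ :=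
  (innerSL ℂ Ω).comp (ContinuousLinearMap.apply ℂ H Ω)

omit [CompleteSpace H] in
lemma vf_apply (Ω : H) (x : H →L[ℂ] H) : vf Ω x = ⟪Ω, x Ω⟫_ℂ := rfl

lemma inner_eq (Ω : H) (x y : H →L[ℂ] H) : ⟪x Ω, y Ω⟫_ℂ = vf Ω (star x * y) := by
  rw [vf_apply, ContinuousLinearMap.star_eq_adjoint]
  exact (ContinuousLinearMap.adjoint_inner_right _ _ _).symm

lemma exists_W (hδ : Der δ) (hs : ∀ x, δ (star x) = star (δ x)) (Ω : H)
    (ht : ∀ x, vf Ω (i (δ x)) = 0) {G : Type*} (e : G → R)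
    (he : ∀ x, x ∈ Submodule.span ℂ (Set.range e))
    (hon : Orthonormal ℂ fun g => i (e g) Ω)
    (hex : ∀ v : G → H, Orthonormal ℂ v → ∃ W : H →ₗᵢ[ℂ] H, ∀ g, W (i (e g) Ω) = v g)
    (hext : ∀ S T : H →L[ℂ] H, (∀ g, S (i (e g) Ω) = T (i (e g) Ω)) → S = T)
    {r : ℝ} (han : ∀ x, An i δ r x) : ∃ W : ℝ → H →L[ℂ] H, ∀ s, |s| ≤ |r| →
      W s ∈ unitary (H →L[ℂ] H) ∧ (∀ x, W s (i x Ω) = al i δ s x Ω) ∧
        ∀ x, W s * i x = al i δ s x * W s := by
  have a0 : ∀ s, |s| ≤ |r| → ∀ x, An i δ s x := fun s h x => (han x).mono h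
  have a0' : ∀ s, |s| ≤ |r| → ∀ x, An i δ (-s) x := fun s h => a0 _ (by rwa [abs_neg])
  have a1 : ∀ s, |s| ≤ |r| → ∀ x y, ⟪al i δ s x Ω, al i δ s y Ω⟫_ℂ = ⟪i x Ω, i y Ω⟫_ℂ := by
    intro s h x y
    have := tr_al hδ (vf Ω) ht (a0' s h 1) (a0 s h (star x * y))
    rw [al_of_zero _ (der_one hδ), _root_.map_one, one_mul, one_mul] at this
    rw [inner_eq, inner_eq, ← al_star hs, ← al_mul hδ (a0 s h _) (a0 s h _), this, _root_.map_mul i,
      map_star]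
  have a2 : ∀ s : ℝ, ∃ W : H →L[ℂ] H, |s| ≤ |r| →
      (∀ ξ, ‖W ξ‖ = ‖ξ‖) ∧ ∀ x, W (i x Ω) = al i δ s x Ω := by
    intro s
    by_cases h : |s| ≤ |r|
    swap
    · exact ⟨0, fun h' => absurd h' h⟩
    obtain ⟨W, hW⟩ := hex (fun g => al i δ s (e g) Ω) ⟨fun g => by
      rw [← hon.1 g, norm_eq_sqrt_re_inner (𝕜 := ℂ), a1 s h, ← norm_eq_sqrt_re_inner],
      fun g g' hg => (a1 s h _ _).trans (hon.2 hg)⟩
    refine ⟨W.toContinuousLinearMap, fun _ => ⟨W.norm_map, fun x => ?_⟩⟩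
    induction he x using Submodule.span_induction with
    | mem x hx => obtain ⟨g, rfl⟩ := hx; exact hW g
    | zero => rw [al_of_zero _ (map_zero δ)]; simp
    | add x y _ _ hx hy =>
      rw [al_add (a0 s h _) (a0 s h _), map_add, ContinuousLinearMap.add_apply, map_add, hx, hy,
        ContinuousLinearMap.add_apply]
    | smul c x _ hx =>
      rw [al_smul (a0 s h _), map_smul, ContinuousLinearMap.smul_apply, map_smul, hx,
        ContinuousLinearMap.smul_apply]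
  choose W hW using a2
  have a3 : ∀ s, |s| ≤ |r| → star (W s) * W s = 1 := fun s h =>
    (ContinuousLinearMap.norm_map_iff_adjoint_comp_self _).1 (hW s h).1
  have a4 : ∀ s, |s| ≤ |r| → ∀ x y, ⟪i x Ω, W s (i y Ω)⟫_ℂ = ⟪W (-s) (i x Ω), i y Ω⟫_ℂ := by
    intro s h x y
    rw [(hW s h).2, (hW (-s) (by rwa [abs_neg])).2, inner_eq, inner_eq, ← map_star,
      tr_al hδ (vf Ω) ht (a0' s h _) (a0 s h _), al_star hs]
  have a5 : ∀ s, |s| ≤ |r| → star (W s) = W (-s) := by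
    intro s h
    refine hext _ _ fun g => ?_
    rw [← sub_eq_zero, ← inner_self_eq_zero (𝕜 := ℂ)]
    have := hext (ContinuousLinearMap.smulRight
      (innerSL ℂ (star (W s) (i (e g) Ω) - W (-s) (i (e g) Ω)))
        (star (W s) (i (e g) Ω) - W (-s) (i (e g) Ω))) 0 fun g' => by
      rw [ContinuousLinearMap.smulRight_apply, innerSL_apply_apply, inner_sub_left, ← a4 s h,
        ContinuousLinearMap.star_eq_adjoint, ContinuousLinearMap.adjoint_inner_left]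
      simp
    have h2 := congrArg (fun T => T (star (W s) (i (e g) Ω) - W (-s) (i (e g) Ω))) this
    simp only [ContinuousLinearMap.smulRight_apply, innerSL_apply_apply,
      ContinuousLinearMap.zero_apply, smul_eq_zero] at h2
    exact h2.elim id fun h3 => by rw [h3, inner_zero_left]
  refine ⟨W, fun s h => ⟨⟨a3 s h, ?_⟩, (hW s h).2, fun x => hext _ _ fun g => ?_⟩⟩
  · have := a3 (-s) (by rwa [abs_neg])
    rwa [← a5 s h, star_star] at this
  · have e1 : (W s * i x) (i (e g) Ω) = W s (i (x * e g) Ω) := by rw [_root_.map_mul]; rfl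
    have e2 : (al i δ s x * W s) (i (e g) Ω) = al i δ s x (W s (i (e g) Ω)) := rfl
    rw [e1, e2, (hW s h).2, (hW s h).2, al_mul hδ (a0 s h _) (a0 s h _)]
    rfl

omit [CompleteSpace H] in
lemma norm_vec {Ω : H} (h1 : ‖Ω‖ = 1) (a b c : H →L[ℂ] H) (z : ℂ) :
    ‖a Ω - b Ω - z • c Ω‖ ≤ ‖a - b - z • c‖ := by
  have := (a - b - z • c).le_opNorm Ω
  rwa [h1, mul_one] at this

lemma flow_abs (hδ : Der δ) (hs : ∀ x, δ (star x) = star (δ x)) {Ω : H} (h1 : ‖Ω‖ = 1)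
    (ht : ∀ x, vf Ω (i (δ x)) = 0) {G : Type*} (e : G → R) (b : G → H)
    (hb : ∀ g, i (e g) Ω = b g) (he : ∀ x, x ∈ Submodule.span ℂ (Set.range e))
    (hon : Orthonormal ℂ b)
    (hex : ∀ v : G → H, Orthonormal ℂ v → ∃ W : H →ₗᵢ[ℂ] H, ∀ g, W (b g) = v g)
    (hext : ∀ S T : H →L[ℂ] H, (∀ g, S (b g) = T (b g)) → S = T)
    {M : StarSubalgebra ℂ (H →L[ℂ] H)} (hM : IsClosed (M : Set (H →L[ℂ] H))) (hi : ∀ x, i x ∈ M)
    {r : ℝ} (hr : 0 < r) (han : ∀ x, An i δ r x) : ∃ W : ℝ → H →L[ℂ] H,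
      (∀ s, 0 ≤ s → s ≤ r → W s ∈ unitary (H →L[ℂ] H) ∧ W s Ω = Ω ∧
        (∀ x, W s * i x * star (W s) ∈ M) ∧ ∀ x, δ x = 0 → W s * i x = i x * W s) ∧
      ∀ g, ∃ K : ℝ, ∀ s, 0 ≤ s → s ≤ r →
        ‖W s (b g) - b g - (s : ℂ) • i (δ (e g)) Ω‖ ≤ K * s ^ 2 := by
  obtain rfl : (fun g => i (e g) Ω) = b := funext hb
  obtain ⟨W, hW⟩ := exists_W hδ hs Ω ht e he hon hex hext han
  have ab : ∀ s, 0 ≤ s → s ≤ r → |s| ≤ |r| := fun s h0 h1 => by
    rwa [abs_of_nonneg h0, abs_of_pos hr]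
  refine ⟨W, fun s h0 h2 => ⟨(hW s (ab s h0 h2)).1, ?_, fun x => ?_, fun x hx => ?_⟩,
    fun w => ⟨_, fun s h0 h2 => le_trans ?_ (norm_rem hr h0 h2 (han (e w)))⟩⟩
  · have := (hW s (ab s h0 h2)).2.1 1
    rw [al_of_zero _ (der_one hδ), _root_.map_one] at this
    exact this
  · rw [(hW s (ab s h0 h2)).2.2 x, mul_assoc, (hW s (ab s h0 h2)).1.2, mul_one]
    exact al_mem hM hi ((han _).mono (ab s h0 h2))
  · rw [(hW s (ab s h0 h2)).2.2 x, al_of_zero _ hx]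
  · rw [(hW s (ab s h0 h2)).2.1]
    exact norm_vec h1 _ _ _ _

end abs

variable {G : Type*} [Group G]

lemma lp'_mul (g h : G) : lp' (g * h) = lp' g * lp' h := Subtype.ext (lam_mul g h)

lemma lp'_one : lp' (1 : G) = 1 := Subtype.ext lam_one

lemma star_lp' (g : G) : star (lp' g) = lp' g⁻¹ := Subtype.ext (star_lam g)

lemma mem_span (x : P G) : x ∈ Submodule.span ℂ (Set.range (lp' : G → P G)) := by
  obtain ⟨x, hx⟩ := x
  have : ∀ y ∈ Submodule.span ℂ (Set.range (lam (G := G))), ∀ hy : y ∈ P G,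
      (⟨y, hy⟩ : P G) ∈ Submodule.span ℂ (Set.range (lp' : G → P G)) := by
    intro y hy
    induction hy using Submodule.span_induction with
    | mem x hx => obtain ⟨g, rfl⟩ := hx; exact fun _ => Submodule.subset_span ⟨g, rfl⟩
    | zero => exact fun _ => Submodule.zero_mem _
    | add x y hx hy ihx ihy =>
      exact fun _ => Submodule.add_mem _ (ihx (mem_P.2 hx)) (ihy (mem_P.2 hy))
    | smul c x hx ih => exact fun _ => Submodule.smul_mem _ c (ih (mem_P.2 hx))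
  exact this x (mem_P.1 hx) hx

lemma lp'_dl (g : G) : (P G).subtype (lp' g) (dl 1) = dl g := (lam_dl g 1).trans (by rw [mul_one])

section an
variable {R : Type*} [Ring R] [StarRing R] [Algebra ℂ R] [StarModule ℂ R]
variable {B : Type*} [CStarAlgebra B] {i : R →⋆ₐ[ℂ] B} {δ : R →ₗ[ℂ] R}

lemma an_all {ι : Type*} (hδ : Der δ) (hs : ∀ x, δ (star x) = star (δ x))
    (e : FreeGroup ι → R) (h1 : e 1 = 1) (hm : ∀ g h, e (g * h) = e g * e h)
    (hi : ∀ g, e g⁻¹ = star (e g)) (he : ∀ x, x ∈ Submodule.span ℂ (Set.range e)) {C : ℝ}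
    (hC : 0 < C) (hg : ∀ (j : ι) (n : ℕ), ‖i ((δ ^ n) (e (of j)))‖ ≤ C ^ n * n.factorial)
    (x : R) : An i δ (2 * C)⁻¹ x := by
  have a1 : ∀ g, An i δ (2 * C)⁻¹ (e g) := by
    intro g
    induction g using FreeGroup.induction_on with
    | C1 => exact an_of_zero _ (by rw [h1, der_one hδ])
    | of j =>
      refine Summable.of_nonneg_of_le (fun _ => norm_nonneg _) (fun n => ?_)
        summable_geometric_two
      have hf : (0 : ℝ) < n.factorial := by positivity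
      rw [norm_tm, abs_of_pos (by positivity)]
      refine (mul_le_mul_of_nonneg_left (hg j n) (by positivity)).trans (le_of_eq ?_)
      rw [mul_inv, mul_pow, inv_pow C, one_div]
      field_simp
    | inv_of j h => rw [hi]; exact h.star hs
    | mul g h hg hh => rw [hm]; exact hg.mul hδ hh
  induction he x using Submodule.span_induction with
  | mem x hx => obtain ⟨g, rfl⟩ := hx; exact a1 g
  | zero => exact an_of_zero _ (map_zero δ)
  | add x y _ _ hx hy => exact hx.add hy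
  | smul c x _ hx => exact hx.smul c

end an

end E

variable {ι : Type*}

open E in
theorem flow {δ : P (FreeGroup ι) →ₗ[ℂ] P (FreeGroup ι)} (hδ : IsDer δ)
    (hs : ∀ x, δ (star x) = star (δ x))
    (ht : ∀ x, tr (δ x : L2 (FreeGroup ι) →L[ℂ] L2 (FreeGroup ι)) = 0) {C : ℝ} (hC : 0 < C)
    (hg : ∀ (j : ι) (n : ℕ), ‖(δ ^ n) (lp' (of j))‖ ≤ C ^ n * n.factorial) :
    ∃ (r : ℝ) (W : ℝ → L2 (FreeGroup ι) →L[ℂ] L2 (FreeGroup ι)), 0 < r ∧
      (∀ s, 0 ≤ s → s ≤ r → Good (W s) ∧ ∀ x : P (FreeGroup ι), δ x = 0 → W s * x = x * W s) ∧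
      ∀ w : FreeGroup ι, ∃ K : ℝ, ∀ s, 0 ≤ s → s ≤ r →
        ‖W s (dl w) - dl w - (s : ℂ) • (δ (lp' w) : L2 (FreeGroup ι) →L[ℂ] L2 (FreeGroup ι))
          (dl 1)‖ ≤ K * s ^ 2 := by
  have han := an_all (i := (P (FreeGroup ι)).subtype) hδ hs lp' lp'_one lp'_mul
    (fun g => (star_lp' g).symm) mem_span hC hg
  have hr : 0 < (2 * C)⁻¹ := by positivity
  obtain ⟨W, h1, h2⟩ := flow_abs (i := (P (FreeGroup ι)).subtype) hδ hs (norm_dl 1) ht lp' dl
    lp'_dl mem_span orthonormal_dl (fun v hv => exists_isometry hv) (fun S T h => ext_dl h)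
    isClosed_L (fun x => P_le x.2) hr han
  exact ⟨_, W, hr, fun s h0 h3 => ⟨⟨(h1 s h0 h3).1, (h1 s h0 h3).2.1,
    fun g => (h1 s h0 h3).2.2.1 (lp' g)⟩, (h1 s h0 h3).2.2.2⟩, h2⟩

end Vale.Agent.P086
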