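import Vale.Agent.P086.Basic

/-! Part F1 of P086: from the intertwining unitary to the isomorphism. -/

namespace Vale.Agent.P086

open scoped InnerProductSpace ComplexConjugate

namespace F

lemma ext2 {α : Type*} {E : Type*} [NormedAddCommGroup E] [InnerProductSpace ℂ E]
    [CompleteSpace E] (V : L2 α ≃ₗᵢ[ℂ] E) {A B : E →L[ℂ] E}
    (h : ∀ a b, ⟪V (dl b), A (V (dl a))⟫_ℂ = ⟪V (dl b), B (V (dl a))⟫_ℂ) : A = B := by
  apply EquivLike.injective V.symm.conjStarAlgEquiv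
  refine ext_dl fun a => ?_
  ext b
  rw [← inner_dl, ← inner_dl, ← V.inner_map_map, ← V.inner_map_map (dl b)]
  simpa using h a b

variable {G G' : Type*} [Group G] [Group G']

lemma comm_lam (V : L2 G ≃ₗᵢ[ℂ] L2 G') (h1 : V (dl 1) = dl 1)
    (hm : ∀ g : G, V.conjStarAlgEquiv (lam g) ∈ L G') {T : L2 G' →L[ℂ] L2 G'}
    (hT : ∀ g : G, V.conjStarAlgEquiv (lam g) * T = T * V.conjStarAlgEquiv (lam g)) (z : G') :
    lam z * T = T * lam z := by
  set Φ := V.conjStarAlgEquiv with hΦ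
  have hv : ∀ g : G, V (dl g) = Φ (lam g) (dl 1) := fun g => by
    rw [← h1, hΦ]; simp [lam_dl]
  have hn : ∀ g : G, ‖Φ (lam g)‖ ≤ 1 := fun g =>
    ContinuousLinearMap.opNorm_le_bound _ zero_le_one fun ξ => by
      rw [hΦ]; simp [norm_lam_apply]
  have happ : ∀ ζ ∈ Submodule.span ℂ (Set.range (dl : G → L2 G)),
      ∃ q ∈ L G', q * T = T * q ∧ q (dl 1) = V ζ := by
    intro ζ hζ
    induction hζ using Submodule.span_induction with
    | mem x hx => obtain ⟨g, rfl⟩ := hx; exact ⟨_, hm g, hT g, (hv g).symm⟩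
    | zero => exact ⟨0, zero_mem _, by simp, by simp⟩
    | add x y _ _ hx hy =>
      obtain ⟨p, p1, p2, p3⟩ := hx
      obtain ⟨q, q1, q2, q3⟩ := hy
      exact ⟨p + q, add_mem p1 q1, by rw [add_mul, mul_add, p2, q2], by simp [p3, q3]⟩
    | smul c x _ hx =>
      obtain ⟨p, p1, p2, p3⟩ := hx
      exact ⟨c • p, SMulMemClass.smul_mem _ p1, by rw [smul_mul_assoc, mul_smul_comm, p2],
        by simp [p3]⟩
  refine ext2 V fun a b => ?_
  rw [← sub_eq_zero, ← norm_le_zero_iff]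
  refine le_of_forall_pos_le_add fun ε hε => ?_
  obtain ⟨ζ, hζ, hd⟩ := (Metric.mem_closure_iff.1 (dense_span_dl (V.symm (dl z))))
    (ε / (2 * ‖T‖ + 1)) (by positivity)
  obtain ⟨q, q1, q2, q3⟩ := happ ζ hζ
  have hd' : ‖(lam z - q) (dl 1)‖ ≤ ε / (2 * ‖T‖ + 1) := by
    rw [dist_eq_norm, ← V.norm_map, map_sub, V.apply_symm_apply] at hd
    rw [ContinuousLinearMap.sub_apply, q3, lam_dl, mul_one]
    exact hd.le
  have hr : lam z - q ∈ L G' := sub_mem (lam_mem z) q1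
  have e1 : ‖(lam z - q) (V (dl a))‖ ≤ ε / (2 * ‖T‖ + 1) := by
    rw [hv]
    refine (norm_mul_dl hr (hm a)).trans ?_
    exact (mul_le_of_le_one_left (norm_nonneg _) (hn a)).trans hd'
  have e2 : ‖star (lam z - q) (V (dl b))‖ ≤ ε / (2 * ‖T‖ + 1) := by
    rw [hv]
    refine (norm_mul_dl (star_mem hr) (hm b)).trans ?_
    rw [norm_star_dl hr]
    exact (mul_le_of_le_one_left (norm_nonneg _) (hn b)).trans hd'
  have e3 : ⟪V (dl b), (lam z * T) (V (dl a))⟫_ℂ - ⟪V (dl b), (T * lam z) (V (dl a))⟫_ℂ =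
      ⟪star (lam z - q) (V (dl b)), T (V (dl a))⟫_ℂ -
        ⟪V (dl b), T ((lam z - q) (V (dl a)))⟫_ℂ := by
    have := congrArg (fun S : L2 G' →L[ℂ] L2 G' => S (V (dl a))) q2
    simp only [ContinuousLinearMap.mul_apply] at this
    rw [ContinuousLinearMap.star_eq_adjoint, ContinuousLinearMap.adjoint_inner_left]
    simp only [ContinuousLinearMap.mul_apply, ContinuousLinearMap.sub_apply, map_sub,
      inner_sub_right, this]
    ring
  rw [e3, zero_add]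
  have n1 : ∀ a : G, ‖V (dl a)‖ = 1 := fun a => by rw [V.norm_map, norm_dl]
  have f1 : ‖⟪star (lam z - q) (V (dl b)), T (V (dl a))⟫_ℂ‖ ≤ ε / (2 * ‖T‖ + 1) * ‖T‖ := by
    refine (norm_inner_le_norm _ _).trans (mul_le_mul e2 ?_ (norm_nonneg _) (by positivity))
    simpa [n1] using T.le_opNorm (V (dl a))
  have f2 : ‖⟪V (dl b), T ((lam z - q) (V (dl a)))⟫_ℂ‖ ≤ ‖T‖ * (ε / (2 * ‖T‖ + 1)) := by
    refine (norm_inner_le_norm _ _).trans ?_
    rw [n1, one_mul]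
    exact T.le_of_opNorm_le_of_le le_rfl e1
  refine (norm_sub_le _ _).trans ?_
  have f3 : ε / (2 * ‖T‖ + 1) * (2 * ‖T‖ + 1) = ε := div_mul_cancel₀ _ (by positivity)
  have f4 : 0 < ε / (2 * ‖T‖ + 1) := by positivity
  nlinarith

end F

theorem iso_of {G G' : Type*} [Group G] [Group G'] (V : L2 G ≃ₗᵢ[ℂ] L2 G') (h1 : V (dl 1) = dl 1)
    (hm : ∀ g : G, ∃ x ∈ L G', ∀ ξ, V (lam g ξ) = x (V ξ)) : Nonempty (L G ≃⋆ₐ[ℂ] L G') := by
  set Φ := V.conjStarAlgEquiv with hΦ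
  have hm' : ∀ g : G, Φ (lam g) ∈ L G' := fun g => by
    obtain ⟨x, hx, h⟩ := hm g
    have : Φ (lam g) = x := by
      ext1 ξ
      rw [hΦ, LinearIsometryEquiv.conjStarAlgEquiv_apply_apply, h, V.apply_symm_apply]
    rwa [this]
  have key : ∀ x, x ∈ L G ↔ Φ x ∈ L G' := fun x => by
    rw [mem_L, mem_L]
    constructor
    · intro h T hT
      obtain ⟨T, rfl⟩ := EquivLike.surjective Φ T
      rw [← map_mul, ← map_mul, h T fun g => EquivLike.injective Φ ?_]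
      rw [map_mul, map_mul]
      exact (mem_L.1 (hm' g) _ hT).symm
    · intro h T hT
      apply EquivLike.injective Φ
      rw [map_mul, map_mul]
      exact h _ (F.comm_lam V h1 hm' fun g => by rw [← map_mul, ← map_mul, hT])
  let f : L G →⋆ₐ[ℂ] L G' :=
    (((Φ : (L2 G →L[ℂ] L2 G) →⋆ₐ[ℂ] (L2 G' →L[ℂ] L2 G'))).comp (L G).subtype).codRestrict (L G')
      fun x => (key x).1 x.2
  refine ⟨StarAlgEquiv.ofBijective f ⟨fun x y h => ?_, fun y => ?_⟩⟩
  · exact Subtype.ext (EquivLike.injective Φ (congrArg Subtype.val h))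
  · obtain ⟨x, hx⟩ := EquivLike.surjective Φ (y : L2 G' →L[ℂ] L2 G')
    exact ⟨⟨x, (key x).2 (hx ▸ y.2)⟩, Subtype.ext hx⟩

end Vale.Agent.P086
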