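import Vale.Agent.P086.Basic

/-! P086 part G: growth of the derivation. -/

namespace Vale.Agent.P086

open scoped InnerProductSpace ComplexConjugate
open FreeGroup

namespace G

variable {R : Type*} [NormedRing R] [NormedAlgebra ℂ R] {ι : Type*} (w : FreeGroup ι →* R)

/-- Combinations of words of bounded length with bounded coefficient sum. -/
inductive Bd (D : ℕ) : ℝ → R → Prop
  | word (a : ℂ) (l : List (ι × Bool)) (h : l.length ≤ D) : Bd D ‖a‖ (a • w (mk l))
  | add {c c' : ℝ} {x y : R} : Bd D c x → Bd D c' y → Bd D (c + c') (x + y)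
  | mono {c c' : ℝ} {x : R} : Bd D c x → c ≤ c' → Bd D c' x

variable {w}

lemma Bd.nonneg {D : ℕ} {c : ℝ} {x : R} (h : Bd w D c x) : 0 ≤ c := by
  induction h with
  | word a l h => exact norm_nonneg _
  | add _ _ h1 h2 => exact add_nonneg h1 h2
  | mono _ h1 h2 => exact h2.trans h1

lemma Bd.norm_le (hw : ∀ g, ‖w g‖ ≤ 1) {D : ℕ} {c : ℝ} {x : R} (h : Bd w D c x) : ‖x‖ ≤ c := by
  induction h with
  | word a l h => rw [norm_smul]; exact mul_le_of_le_one_right (norm_nonneg _) (hw _)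
  | add _ _ h1 h2 => exact (norm_add_le _ _).trans (add_le_add h1 h2)
  | mono _ h1 h2 => exact h2.trans h1

lemma Bd.up {D D' : ℕ} (hD : D ≤ D') {c : ℝ} {x : R} (h : Bd w D c x) : Bd w D' c x := by
  induction h with
  | word a l h => exact .word a l (h.trans hD)
  | add _ _ h1 h2 => exact h1.add h2
  | mono _ h1 h2 => exact h2.mono h1

lemma Bd.zero (D : ℕ) : Bd w D 0 0 := by
  simpa using Bd.word (w := w) (D := D) 0 [] (Nat.zero_le _)

lemma Bd.smul {D : ℕ} {c : ℝ} {x : R} (b : ℂ) (h : Bd w D c x) : Bd w D (‖b‖ * c) (b • x) := by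
  induction h with
  | word a l h => rw [smul_smul, ← norm_mul]; exact .word _ l h
  | add _ _ h1 h2 => rw [mul_add, smul_add]; exact h1.add h2
  | mono _ h1 h2 => exact h2.mono (mul_le_mul_of_nonneg_left h1 (norm_nonneg _))

lemma Bd.mul_word {D : ℕ} {c : ℝ} {x : R} (h : Bd w D c x) (l' : List (ι × Bool)) :
    Bd w (D + l'.length) c (x * w (mk l')) := by
  induction h with
  | word a l h =>
    rw [smul_mul_assoc, ← w.map_mul, mul_mk]
    exact .word a _ (by simp; omega)
  | add _ _ h1 h2 => rw [add_mul]; exact h1.add h2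
  | mono _ h1 h2 => exact h2.mono h1

lemma Bd.word_mul {D : ℕ} {c : ℝ} {x : R} (h : Bd w D c x) (l' : List (ι × Bool)) :
    Bd w (D + l'.length) c (w (mk l') * x) := by
  induction h with
  | word a l h =>
    rw [mul_smul_comm, ← w.map_mul, mul_mk]
    exact .word a _ (by simp; omega)
  | add _ _ h1 h2 => rw [mul_add]; exact h1.add h2
  | mono _ h1 h2 => exact h2.mono h1

lemma exists_bd {x : R} (hx : x ∈ Submodule.span ℂ (Set.range w)) : ∃ D c, Bd w D c x := by
  induction hx using Submodule.span_induction with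
  | mem x hx =>
    obtain ⟨g, rfl⟩ := hx
    obtain ⟨l, rfl⟩ := Quot.exists_rep g
    exact ⟨_, _, by simpa using Bd.word (w := w) 1 l le_rfl⟩
  | zero => exact ⟨0, 0, .zero 0⟩
  | add x y _ _ hx hy =>
    obtain ⟨D, c, h⟩ := hx
    obtain ⟨D', c', h'⟩ := hy
    exact ⟨_, _, (h.up (le_max_left D D')).add (h'.up (le_max_right D D'))⟩
  | smul c x _ hx =>
    obtain ⟨D, c', h⟩ := hx
    exact ⟨_, _, h.smul c⟩

variable {δ : R →ₗ[ℂ] R} (hδ : ∀ x y, δ (x * y) = δ x * y + x * δ y)
include hδ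

lemma der_one : δ 1 = 0 := by simpa using hδ 1 1

lemma der_inv (g : FreeGroup ι) : δ (w g⁻¹) = -(w g⁻¹ * δ (w g) * w g⁻¹) := by
  have h := hδ (w g⁻¹) (w g)
  rw [← w.map_mul, inv_mul_cancel, w.map_one, der_one hδ] at h
  have h2 := congrArg (· * w g⁻¹) h
  simp only [zero_mul, add_mul, mul_assoc, ← w.map_mul, mul_inv_cancel, w.map_one, mul_one] at h2
  rw [eq_neg_iff_add_eq_zero, mul_assoc, ← h2]

lemma bd_word {d : ℕ} {K : ℝ} (h : ∀ p : ι × Bool, Bd w d K (δ (w (mk [p]))))
    (l : List (ι × Bool)) : Bd w (l.length + d) (l.length * K) (δ (w (mk l))) := by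
  induction l with
  | nil =>
    have : (mk [] : FreeGroup ι) = 1 := rfl
    rw [this, w.map_one, der_one hδ]
    simpa using Bd.zero (w := w) d
  | cons p l ih =>
    have e : (mk (p :: l) : FreeGroup ι) = mk [p] * mk l := by rw [mul_mk]; rfl
    rw [e, w.map_mul, hδ]
    refine ((((h p).mul_word l).up (by simp only [List.length_cons]; omega)).add
      ((ih.word_mul [p]).up (by simp only [List.length_cons, List.length_nil]; omega))).mono ?_
    simp [add_mul, add_comm]

lemma bd_der {d : ℕ} {K : ℝ} (hK : 0 ≤ K) (h : ∀ p : ι × Bool, Bd w d K (δ (w (mk [p]))))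
    {D : ℕ} {c : ℝ} {x : R} (hx : Bd w D c x) : Bd w (D + d) (D * K * c) (δ x) := by
  induction hx with
  | word a l hl =>
    rw [map_smul]
    refine (((bd_word hδ h l).smul a).up (by omega)).mono ?_
    rw [mul_comm]
    gcongr
  | add _ _ h1 h2 => rw [map_add, mul_add]; exact h1.add h2
  | mono _ h1 h2 => exact h2.mono (mul_le_mul_of_nonneg_left h1 (by positivity))

theorem growth (hw : ∀ g, ‖w g‖ ≤ 1) {u : ι} (hu : δ (w (of u)) ∈ Submodule.span ℂ (Set.range w))
    (h0 : ∀ j, j ≠ u → δ (w (of j)) = 0) :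
    ∃ C : ℝ, 0 < C ∧ ∀ (j : ι) (n : ℕ), ‖(δ ^ n) (w (of j))‖ ≤ C ^ n * n.factorial := by
  obtain ⟨D, c, h⟩ := exists_bd hu
  have hc := h.nonneg
  have h1 : ∀ j, Bd w D c (δ (w (of j))) := fun j => by
    by_cases hj : j = u
    · rw [hj]; exact h
    · rw [h0 j hj]; exact (Bd.zero D).mono hc
  have h2 : ∀ p : ι × Bool, Bd w (D + 2) (c + 1) (δ (w (mk [p]))) := by
    rintro ⟨j, _ | _⟩
    · have e : (mk [(j, false)] : FreeGroup ι) = (of j)⁻¹ := rfl
      have := (((h1 j).word_mul [(j, false)]).mul_word [(j, false)]).smul (-1)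
      rw [e, der_inv hδ, ← e, ← neg_one_smul ℂ]
      exact this.mono (by simp)
    · exact ((h1 j).up (by omega)).mono (by linarith)
  refine ⟨(c + 1) * (D + 3), by positivity, fun j n => ?_⟩
  have key : Bd w (1 + n * (D + 2)) (((c + 1) * (D + 3)) ^ n * n.factorial)
      ((δ ^ n) (w (of j))) := by
    induction n with
    | zero =>
      have e : (of j : FreeGroup ι) = mk [(j, true)] := rfl
      rw [e]
      simpa using Bd.word (w := w) (D := 1) 1 [(j, true)] le_rfl
    | succ n ih =>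
      rw [pow_succ' δ, Module.End.mul_apply]
      refine ((bd_der hδ (by positivity) h2 ih).up (by ring_nf; omega)).mono ?_
      rw [Nat.factorial_succ, pow_succ]
      push_cast
      have e : (1 + n * (D + 2) : ℝ) ≤ (D + 3) * (n + 1) := by
        have : (0 : ℝ) ≤ n := n.cast_nonneg
        have : (0 : ℝ) ≤ D := D.cast_nonneg
        nlinarith
      calc _ ≤ (D + 3) * (n + 1) * (c + 1) * (((c + 1) * (D + 3)) ^ n * n.factorial) := by gcongr
        _ = _ := by ring
  exact key.norm_le hw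

end G

variable {ι : Type*}

theorem der_growth {u : ι} {δ : P (FreeGroup ι) →ₗ[ℂ] P (FreeGroup ι)}
    (hδ : IsDer δ) (h0 : ∀ j, j ≠ u → δ (lp' (of j)) = 0) :
    ∃ C : ℝ, 0 < C ∧ ∀ (j : ι) (n : ℕ), ‖(δ ^ n) (lp' (of j))‖ ≤ C ^ n * n.factorial := by
  let w : FreeGroup ι →* P (FreeGroup ι) :=
    ⟨⟨lp', Subtype.ext lam_one⟩, fun g h => Subtype.ext (lam_mul g h)⟩
  have hs : ∀ x ∈ Submodule.span ℂ (Set.range (lam (G := FreeGroup ι))), ∀ hx,
      (⟨x, hx⟩ : P (FreeGroup ι)) ∈ Submodule.span ℂ (Set.range w) := by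
    intro x h1
    induction h1 using Submodule.span_induction with
    | mem x h => obtain ⟨g, rfl⟩ := h; exact fun _ => Submodule.subset_span ⟨g, rfl⟩
    | zero => exact fun _ => Submodule.zero_mem _
    | add x y h1 h2 hx hy =>
      exact fun _ => Submodule.add_mem _ (hx (mem_P.2 h1)) (hy (mem_P.2 h2))
    | smul c x h1 hx => exact fun _ => Submodule.smul_mem _ c (hx (mem_P.2 h1))
  exact G.growth (w := w) hδ (fun g => ContinuousLinearMap.opNorm_le_bound _ zero_le_one fun ξ => by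
    rw [one_mul]; exact (norm_lam_apply g ξ).le) (hs _ (mem_P.1 (δ _).2) _) h0

end Vale.Agent.P086
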