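import Vale.Agent.P086.K1
import Vale.Agent.P086.K2

/-! Part K of P086: the approximate inverse. -/

namespace Vale.Agent.P086

open scoped InnerProductSpace ComplexConjugate
open FreeGroup

namespace K

section grp
variable {G : Type*} [Group G]

/-- Evaluation at the trace vector. -/
noncomputable def ev : (L2 G →L[ℂ] L2 G) →ₗ[ℂ] L2 G where
  toFun x := x (dl 1)
  map_add' _ _ := rfl
  map_smul' _ _ := rfl

lemma norm_cj (g : G) {x : L2 G →L[ℂ] L2 G} (hx : x ∈ P G) :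
    ‖(lam g * x * lam g⁻¹) (dl 1)‖ = ‖x (dl 1)‖ := by
  rw [mul_apply_eq_comp, mul_apply_eq_comp, norm_lam_apply, lam_dl, norm_apply_dl (P_le hx)]

lemma conj_lam (g x : G) : lam g * lam x * lam g⁻¹ = lam (g * x * g⁻¹) := by
  rw [lam_mul, lam_mul]

lemma conj_Cj (t g : G) {x : L2 G →L[ℂ] L2 G} (hx : x ∈ Cj t) : lam g * x * lam g⁻¹ ∈ Cj t := by
  induction hx using Submodule.span_induction with
  | mem x hx =>
    obtain ⟨b, n, rfl⟩ := hx
    exact Submodule.subset_span ⟨g * b, n, by rw [conj_lam]; congr 1; group⟩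
  | zero => simp
  | add x y _ _ hx hy => rw [mul_add, add_mul]; exact add_mem hx hy
  | smul c x _ hx => rw [mul_smul_comm, smul_mul_assoc]; exact Submodule.smul_mem _ _ hx

/-- The span of the nonzero powers. -/
noncomputable def Pw0 (t : G) : Submodule ℂ (L2 G →L[ℂ] L2 G) :=
  Submodule.span ℂ {x | ∃ n : ℤ, n ≠ 0 ∧ x = lam (t ^ n)}

lemma one_Cj (t : G) : (1 : L2 G →L[ℂ] L2 G) ∈ Cj t :=
  Submodule.subset_span ⟨1, 0, by simp [lam_one]⟩

lemma sub_tr {t : G} (ht : ∀ n : ℤ, n ≠ 0 → t ^ n ≠ 1) {x : L2 G →L[ℂ] L2 G} (hx : x ∈ Pw t) :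
    x - tr x • 1 ∈ Pw0 t := by
  induction hx using Submodule.span_induction with
  | mem x hx =>
    obtain ⟨n, rfl⟩ := hx
    rw [tr, lam_dl, inner_dl, dl_apply, mul_one]
    by_cases hn : n = 0
    · simp [hn, lam_one]
    · rw [if_neg (ht n hn).symm, zero_smul, sub_zero]
      exact Submodule.subset_span ⟨n, hn, rfl⟩
  | zero => simp [tr]
  | add x y _ _ hx hy =>
    have : x + y - tr (x + y) • 1 = (x - tr x • 1) + (y - tr y • 1) := by
      simp only [tr, add_apply, inner_add_right, add_smul]; abel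
    rw [this]; exact add_mem hx hy
  | smul c x _ hx =>
    have : c • x - tr (c • x) • 1 = c • (x - tr x • 1) := by
      simp only [tr, smul_apply, inner_smul_right, smul_sub, smul_smul]
    rw [this]; exact Submodule.smul_mem _ _ hx

lemma orth_conj {t g g' : G}
    (h : ∀ n m : ℤ, n ≠ 0 → g * t ^ n * g⁻¹ ≠ g' * t ^ m * g'⁻¹) {x y : L2 G →L[ℂ] L2 G}
    (hx : x ∈ Pw0 t) (hy : y ∈ Pw0 t) :
    ⟪(lam g * x * lam g⁻¹) (dl 1), (lam g' * y * lam g'⁻¹) (dl 1)⟫_ℂ = 0 := by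
  induction hx using Submodule.span_induction with
  | mem x hx =>
    obtain ⟨n, hn, rfl⟩ := hx
    induction hy using Submodule.span_induction with
    | mem y hy =>
      obtain ⟨m, _, rfl⟩ := hy
      rw [conj_lam, conj_lam, lam_dl, lam_dl, inner_dl, dl_apply, mul_one, mul_one,
        if_neg (h n m hn)]
    | zero => simp
    | add x y _ _ hx hy =>
      rw [mul_add, add_mul, add_apply, inner_add_right, hx, hy, add_zero]
    | smul c x _ hx =>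
      rw [mul_smul_comm, smul_mul_assoc, smul_apply, inner_smul_right, hx,
        mul_zero]
  | zero => simp
  | add x y _ _ hx hy =>
    rw [mul_add, add_mul, add_apply, inner_add_left, hx, hy, add_zero]
  | smul c x _ hx =>
    rw [mul_smul_comm, smul_mul_assoc, smul_apply, inner_smul_left, hx,
      mul_zero]

/-- Self-adjoint elements in the span of the conjugates. -/
noncomputable def Dd (t : G) : AddSubgroup (L2 G →L[ℂ] L2 G) where
  carrier := {x | x ∈ P G ∧ star x = x ∧ x ∈ Cj t}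
  add_mem' := fun ha hb => ⟨add_mem ha.1 hb.1, by rw [star_add, ha.2.1, hb.2.1],
    add_mem ha.2.2 hb.2.2⟩
  zero_mem' := ⟨zero_mem _, star_zero _, zero_mem _⟩
  neg_mem' := fun ha => ⟨neg_mem ha.1, by rw [star_neg, ha.2.1], neg_mem ha.2.2⟩

lemma Dd_smul {t : G} (r : ℝ) (x : L2 G →L[ℂ] L2 G) (hx : x ∈ Dd t) : (r : ℂ) • x ∈ Dd t :=
  ⟨SMulMemClass.smul_mem _ hx.1,
    by rw [star_smul, hx.2.1, Complex.star_def, Complex.conj_ofReal],
    Submodule.smul_mem _ _ hx.2.2⟩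

lemma Dd_cj {t : G} (g : G) (x : L2 G →L[ℂ] L2 G) (hx : x ∈ Dd t) :
    lam g * x * lam g⁻¹ ∈ Dd t :=
  ⟨mul_mem (mul_mem (lp' g).2 hx.1) (lp' g⁻¹).2,
    by rw [star_mul, star_mul, star_lam, star_lam, inv_inv, hx.2.1, mul_assoc],
    conj_Cj t g hx.2.2⟩

lemma tr_real {H : L2 G →L[ℂ] L2 G} (hP : H ∈ P G) (hs : star H = H) : ∃ c : ℝ, tr H = c := by
  have h1 := star_apply_dl (P_le hP) 1
  rw [hs, inv_one] at h1
  rw [tr, inner_dl]
  exact ⟨_, (Complex.conj_eq_iff_re.mp h1.symm).symm⟩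

lemma Pw_le (t : G) : Pw t ≤ Cj t :=
  Submodule.span_mono (by rintro _ ⟨n, rfl⟩; exact ⟨1, n, by simp⟩)

lemma main {t : G} (ψ : FreeGroup ℕ →* G) (ht : ∀ n : ℤ, n ≠ 0 → t ^ n ≠ 1)
    (hd : ∀ g g', g ≠ g' → ∀ n m : ℤ, n ≠ 0 →
      ψ g * t ^ n * (ψ g)⁻¹ ≠ ψ g' * t ^ m * (ψ g')⁻¹) {H : L2 G →L[ℂ] L2 G} (hP : H ∈ P G)
    (hs : star H = H) (hH : H ∈ Pw t) {ε : ℝ} (hε : 0 < ε) :
    ∃ (n : ℕ), ∃ h ∈ Dd t, ‖h (dl 1)‖ ≤ ε ∧
      ‖(∑ k ∈ Finset.range n, lam (ψ (of k)) * h * lam (ψ (of k))⁻¹ - H) (dl 1)‖ ≤ ε := by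
  obtain ⟨c, hc⟩ := tr_real hP hs
  have h0 := sub_tr ht hH
  rw [hc] at h0
  have e : ∀ g, (lamH.comp ψ) g = lam (ψ g) := fun _ => rfl
  have := approx_ring (lamH.comp ψ) ev H c (Dd t)
    (fun g x hx => by rw [e, e, ψ.map_inv]; exact norm_cj _ hx.1)
    (fun g g' h => by
      rw [e, e, e, e, ψ.map_inv, ψ.map_inv]; exact orth_conj (hd g g' h) h0 h0)
    ⟨hP, hs, Pw_le t hH⟩ ⟨one_mem _, star_one _, one_Cj t⟩ (norm_dl 1)
    (fun g x hx => by rw [e, e, ψ.map_inv]; exact Dd_cj _ x hx) Dd_smul hε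
  simp only [e, ψ.map_inv] at this
  exact this

end grp

end K

open K

variable {ι : Type*}

theorem exists_h {a b u t : ι} (hab : a ≠ b) (hau : a ≠ u) (hbu : b ≠ u) (hat : a ≠ t)
    (hbt : b ≠ t) (hut : t ≠ u) (H : P (FreeGroup ι)) (hs : star H = H)
    (hH : (H : L2 (FreeGroup ι) →L[ℂ] L2 (FreeGroup ι)) ∈ Pw (of t)) {ε : ℝ} (hε : 0 < ε) :
    ∃ (n : ℕ) (h : P (FreeGroup ι)), star h = h ∧
      (h : L2 (FreeGroup ι) →L[ℂ] L2 (FreeGroup ι)) ∈ Cj (of t) ∧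
      ‖(h : L2 (FreeGroup ι) →L[ℂ] L2 (FreeGroup ι)) (dl 1)‖ ≤ ε ∧
      ‖((∑ k ∈ Finset.range n, lp' (pp (of a) (of b) (of u) k) * h *
        lp' (pp (of a) (of b) (of u) k)⁻¹ - H : P (FreeGroup ι)) :
          L2 (FreeGroup ι) →L[ℂ] L2 (FreeGroup ι)) (dl 1)‖ ≤ ε := by
  obtain ⟨n, h, h1, h2, h3⟩ := main (ps a b u) (fun n hn => zpow_ne hat hbt hn)
    (fun g g' h n m hn => distinct hab hau hbu hat hbt hut h hn m) H.2
    (congrArg Subtype.val hs) hH hε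
  simp only [ps, FreeGroup.lift_apply_of] at h3
  refine ⟨n, ⟨h, h1.1⟩, Subtype.ext h1.2.1, h1.2.2, h2, ?_⟩
  rw [AddSubgroupClass.coe_sub, AddSubmonoidClass.coe_finset_sum]
  exact h3

end Vale.Agent.P086
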