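import Vale.Agent.P086.Basic

/-! Part Lg of P086: an approximate logarithm of a Haar unitary. -/

namespace Vale.Agent.P086

open scoped InnerProductSpace ComplexConjugate
open Complex

namespace Lg

lemma exists_arg {B : Type*} [CStarAlgebra B] {T : B} (hT : T ∈ unitary B) {r : ℝ} (h0 : 0 ≤ r)
    (h1 : r < 1) (C : StarSubalgebra ℂ B) (hC : IsClosed (C : Set B)) (hTC : T ∈ C) :
    ∃ H1 ∈ C, star H1 = H1 ∧ NormedSpace.exp (I • H1) - T =
      ((1 - r : ℝ) : ℂ) • ((1 - T) * ∑' n : ℕ, (((-r : ℝ) : ℂ) • star T) ^ n) := by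
  nontriviality B
  obtain ⟨x, hx⟩ : ∃ x : B, x = ((-r : ℝ) : ℂ) • star T := ⟨_, rfl⟩
  have hsx : star x = ((-r : ℝ) : ℂ) • T := by
    rw [hx, star_smul, star_star, star_def, conj_ofReal]
  have nx : ‖x‖ = r := by
    rw [hx, norm_smul, norm_star, CStarRing.norm_of_mem_unitary hT, norm_real, Real.norm_eq_abs,
      abs_neg, abs_of_nonneg h0, mul_one]
  have hxC : x ∈ C := hx ▸ SMulMemClass.smul_mem _ (star_mem hTC)
  rw [← hx]
  obtain ⟨F, hF⟩ : ∃ F : B, F = ∑' n : ℕ, x ^ n := ⟨_, rfl⟩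
  rw [← hF]
  have l : F * (1 - x) = 1 := hF ▸ geom_series_mul_neg _ (by rwa [nx])
  have r' : (1 - x) * F = 1 := hF ▸ mul_neg_geom_series _ (by rwa [nx])
  have hFC : F ∈ C := hF ▸ tsum_mem hC fun n => pow_mem hxC n
  have l2 : (1 - star x) * star F = 1 := by
    rw [← star_one B, ← star_sub, ← star_mul, star_one, l, star_one]
  have r2 : star F * (1 - star x) = 1 := by
    rw [← star_one B, ← star_sub, ← star_mul, star_one, r', star_one]
  have c0 : x * star x = star x * x := by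
    rw [hsx, hx, smul_mul_smul_comm, smul_mul_smul_comm, hT.1, hT.2]
  have c : (1 - x) * (1 - star x) = (1 - star x) * (1 - x) := by
    simp only [sub_mul, mul_sub, one_mul, mul_one, c0]
    abel
  have e : (1 - star x) * F = F * (1 - star x) := by
    calc _ = F * ((1 - x) * (1 - star x)) * F := by rw [← mul_assoc, l, one_mul]
      _ = _ := by rw [c, mul_assoc, mul_assoc, r', mul_one]
  have hV : (1 - star x) * F ∈ unitary B := by
    constructor
    · rw [star_mul, star_sub, star_one, star_star]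
      calc _ = star F * ((1 - x) * (1 - star x)) * F := by simp only [mul_assoc]
        _ = (star F * (1 - star x)) * ((1 - x) * F) := by rw [c]; simp only [mul_assoc]
        _ = 1 := by rw [r2, r', one_mul]
    · rw [e, star_mul, star_sub, star_one, star_star]
      calc _ = F * ((1 - star x) * (1 - x)) * star F := by simp only [mul_assoc]
        _ = (F * (1 - x)) * ((1 - star x) * star F) := by rw [← c]; simp only [mul_assoc]
        _ = 1 := by rw [l, l2, one_mul]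
  have hlt : ‖(1 - star x) * F - 1‖ < 2 := by
    rw [Unitary.norm_sub_one_lt_two_iff hV, spectrum.notMem_iff]
    have ny : ‖(1 / 2 : ℂ) • (x + star x)‖ < 1 := by
      rw [norm_smul]
      have := norm_add_le x (star x)
      rw [norm_star, nx] at this
      have h2 : ‖(1 / 2 : ℂ)‖ = 1 / 2 := by simp
      rw [h2]; linarith
    have u1 : IsUnit (1 - (1 / 2 : ℂ) • (x + star x)) := (Units.oneSub _ ny).isUnit
    have u2 : IsUnit F := ⟨⟨F, 1 - x, l, r'⟩, rfl⟩
    have e2 : algebraMap ℂ B (-1) - (1 - star x) * F =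
        (-2 : ℂ) • ((1 - (1 / 2 : ℂ) • (x + star x)) * F) := by
      rw [map_neg, map_one, ← smul_mul_assoc]
      nth_rewrite 1 [← r']
      rw [← neg_mul, ← sub_mul]
      congr 1
      module
    rw [e2]
    exact (u1.mul u2).smul (Units.mk0 (-2 : ℂ) (by norm_num))
  have hVC : (1 - star x) * F ∈ C := mul_mem (sub_mem (one_mem _) (star_mem hxC)) hFC
  refine ⟨(Unitary.argSelfAdjoint ⟨_, hV⟩ : B), cfc_mem (hs := hC) _ hVC,
    (Unitary.argSelfAdjoint ⟨_, hV⟩).2, ?_⟩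
  have := congrArg Subtype.val (expUnitary_argSelfAdjoint (u := ⟨_, hV⟩) hlt)
  rw [selfAdjoint.expUnitary_coe] at this
  rw [this]
  change (1 - star x) * F - T = _
  nth_rewrite 1 [← mul_one T]
  rw [← r', ← mul_assoc, ← sub_mul, ← smul_mul_assoc, r']
  congr 1
  rw [hsx, hx, mul_sub, mul_one, mul_smul_comm, hT.2]
  push_cast
  module

lemma approx {B : Type*} [CStarAlgebra B] (A : StarSubalgebra ℂ B) {H1 : B}
    (h1 : H1 ∈ A.topologicalClosure) (hs : star H1 = H1) {ε : ℝ} (hε : 0 < ε) :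
    ∃ H ∈ A, star H = H ∧ ‖NormedSpace.exp (I • H) - NormedSpace.exp (I • H1)‖ ≤ ε := by
  let +nondep : NormedAlgebra ℚ B := NormedAlgebra.restrictScalars ℚ ℂ B
  have hc : Continuous fun X : B => NormedSpace.exp (I • X) := by fun_prop
  obtain ⟨δ, hδ, h⟩ := Metric.continuous_iff.1 hc H1 ε hε
  obtain ⟨y, hy, hd⟩ := Metric.mem_closure_iff.1 h1 δ hδ
  refine ⟨(1 / 2 : ℂ) • (y + star y), SMulMemClass.smul_mem _ (add_mem hy (star_mem hy)), ?_, ?_⟩
  · rw [star_smul, star_add, star_star, add_comm]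
    congr 1
    apply Complex.ext <;> simp
  · rw [← dist_eq_norm]
    refine (h _ ?_).le
    have e : (1 / 2 : ℂ) • (y + star y) - H1 = (1 / 2 : ℂ) • ((y - H1) + star (y - H1)) := by
      rw [star_sub, hs]; module
    rw [dist_comm, dist_eq_norm] at hd
    rw [dist_eq_norm, e, norm_smul]
    have := norm_add_le (y - H1) (star (y - H1))
    rw [norm_star] at this
    have h2 : ‖(1 / 2 : ℂ)‖ = 1 / 2 := by simp
    rw [h2]; linarith

variable {G : Type*} [Group G]

lemma adj_Pw (t : G) {x : L2 G →L[ℂ] L2 G} (hx : x ∈ StarAlgebra.adjoin ℂ {lam t}) :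
    x ∈ Pw t := by
  induction hx using StarAlgebra.adjoin_induction with
  | mem x hx => exact Submodule.subset_span ⟨1, by rw [zpow_one]; exact hx⟩
  | algebraMap c =>
    rw [Algebra.algebraMap_eq_smul_one]
    exact Submodule.smul_mem _ _ (Submodule.subset_span ⟨0, by rw [zpow_zero, lam_one]⟩)
  | add x y _ _ hx hy => exact add_mem hx hy
  | mul x y _ _ hx hy =>
    have := Submodule.mul_mem_mul hx hy
    rw [Pw, Submodule.span_mul_span] at this
    refine Submodule.span_mono ?_ this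
    rintro _ ⟨_, ⟨m, rfl⟩, _, ⟨n, rfl⟩, rfl⟩
    exact ⟨m + n, by rw [zpow_add, lam_mul]⟩
  | star x h0 hx =>
    clear h0
    induction hx using Submodule.span_induction with
    | mem x hx =>
      obtain ⟨n, rfl⟩ := hx
      exact Submodule.subset_span ⟨-n, by rw [star_lam, zpow_neg]⟩
    | zero => simp
    | add x y _ _ hx hy => rw [star_add]; exact add_mem hx hy
    | smul c x _ hx => rw [star_smul]; exact Submodule.smul_mem _ _ hx

lemma vec {E : Type*} [NormedAddCommGroup E] [InnerProductSpace ℂ E] [CompleteSpace E]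
    {S : E →L[ℂ] E} (hS : S ∈ unitary (E →L[ℂ] E)) {r : ℝ} (h0 : 0 ≤ r) (h1 : r < 1) {v : E}
    (hv : ‖v‖ = 1) (ho : ∀ n : ℕ, ⟪v, (S ^ (n + 1)) v⟫_ℂ = 0) :
    (1 - r ^ 2) * ‖(∑' n : ℕ, (((-r : ℝ) : ℂ) • S) ^ n) v‖ ^ 2 = 1 := by
  haveI : Nontrivial E := ⟨⟨v, 0, fun h => by simp [h] at hv⟩⟩
  obtain ⟨x, hx⟩ : ∃ x : E →L[ℂ] E, x = ((-r : ℝ) : ℂ) • S := ⟨_, rfl⟩
  have nr : ‖((-r : ℝ) : ℂ)‖ = r := by
    rw [norm_real, Real.norm_eq_abs, abs_neg, abs_of_nonneg h0]
  have nx : ‖x‖ < 1 := by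
    rwa [hx, norm_smul, CStarRing.norm_of_mem_unitary hS, nr, mul_one]
  rw [← hx]
  obtain ⟨F, hF⟩ : ∃ F : E →L[ℂ] E, F = ∑' n : ℕ, x ^ n := ⟨_, rfl⟩
  have r' : (1 - x) * F = 1 := hF ▸ mul_neg_geom_series _ nx
  have e : F v = v + x (F v) := by
    have := congrArg (fun T : E →L[ℂ] E => T v) r'
    simp only [ContinuousLinearMap.mul_apply, ContinuousLinearMap.sub_apply,
      ContinuousLinearMap.one_apply] at this
    exact eq_add_of_sub_eq this
  have o : ⟪v, x (F v)⟫_ℂ = 0 := by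
    let φ : (E →L[ℂ] E) →L[ℂ] ℂ := (innerSL ℂ v) ∘L x ∘L ContinuousLinearMap.apply ℂ E v
    have h2 := ((summable_geometric_of_norm_lt_one nx).hasSum.mapL φ)
    have h3 : ∀ n : ℕ, φ (x ^ n) = 0 := fun n => by
      change ⟪v, (x * x ^ n) v⟫_ℂ = 0
      rw [← pow_succ', hx, smul_pow, ContinuousLinearMap.smul_apply, inner_smul_right, ho, mul_zero]
    simp only [h3] at h2
    rw [hF]
    exact h2.unique hasSum_zero
  have n2 : ‖x (F v)‖ = r * ‖F v‖ := by
    rw [hx, ContinuousLinearMap.smul_apply, norm_smul, nr,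
      ContinuousLinearMap.norm_map_of_mem_unitary hS]
  have := norm_add_sq_eq_norm_sq_add_norm_sq_of_inner_eq_zero _ _ o
  rw [← e, hv, n2] at this
  rw [← hF]
  nlinarith

end Lg

theorem exists_log {G : Type*} [Group G] (t : G) (ht : ∀ n : ℕ, t ^ (n + 1) ≠ 1) {ε : ℝ}
    (hε : 0 < ε) : ∃ H : P G, star H = H ∧ (H : L2 G →L[ℂ] L2 G) ∈ Pw t ∧
      ‖NormedSpace.exp (Complex.I • (H : L2 G →L[ℂ] L2 G)) (dl 1) - dl t‖ ≤ ε := by
  obtain ⟨η, η0, η1, ηε⟩ : ∃ η : ℝ, 0 < η ∧ η ≤ 1 ∧ η ≤ ε / 4 :=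
    ⟨min 1 (ε / 4), by positivity, min_le_left _ _, min_le_right _ _⟩
  have r0 : 0 ≤ 1 - η ^ 2 := by nlinarith
  have r1 : 1 - η ^ 2 < 1 := by nlinarith
  obtain ⟨H1, hH1, hs1, e1⟩ := Lg.exists_arg (lam_unitary t) r0 r1
    (StarAlgebra.adjoin ℂ {lam t}).topologicalClosure
    (StarSubalgebra.isClosed_topologicalClosure _)
    (StarSubalgebra.le_topologicalClosure _ (StarAlgebra.subset_adjoin _ _ rfl))
  obtain ⟨H, hH, hs, e2⟩ := Lg.approx _ hH1 hs1 (half_pos hε)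
  have hP : H ∈ P G := StarAlgebra.adjoin_mono (by rintro _ rfl; exact ⟨t, rfl⟩) hH
  refine ⟨⟨H, hP⟩, Subtype.ext hs, Lg.adj_Pw t hH, ?_⟩
  have e3 := Lg.vec (Unitary.star_mem (lam_unitary t)) r0 r1 (norm_dl (1 : G)) (by
    intro n
    have : star (lam t) ^ (n + 1) = lam (t⁻¹ ^ (n + 1)) := by
      rw [star_lam]; exact (map_pow lamH _ _).symm
    rw [this, lam_dl, inner_dl, dl_apply, if_neg]
    rw [mul_one, inv_pow, eq_comm, inv_eq_one]
    exact ht n)
  obtain ⟨ξ, hξ⟩ : ∃ ξ, ξ = (∑' n : ℕ, (((-(1 - η ^ 2) : ℝ) : ℂ) • star (lam t)) ^ n) (dl (1 : G)) :=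
    ⟨_, rfl⟩
  rw [← hξ] at e3
  have e4 : NormedSpace.exp (Complex.I • H1) (dl 1) - dl t = ((η ^ 2 : ℝ) : ℂ) • (ξ - lam t ξ) := by
    have := congrArg (fun T : L2 G →L[ℂ] L2 G => T (dl 1)) e1
    simp only [ContinuousLinearMap.sub_apply, ContinuousLinearMap.smul_apply,
      ContinuousLinearMap.mul_apply, ContinuousLinearMap.one_apply, lam_dl, mul_one,
      sub_sub_cancel] at this
    rw [hξ]
    exact this
  have e5 : η * ‖ξ‖ ≤ 1 := by
    refine (abs_le_of_sq_le_sq' ?_ zero_le_one).2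
    have : η ^ 2 ≤ 1 - (1 - η ^ 2) ^ 2 := by nlinarith [sq_nonneg η]
    nlinarith [sq_nonneg ‖ξ‖]
  have e6 : ‖NormedSpace.exp (Complex.I • H1) (dl 1) - dl t‖ ≤ ε / 2 := by
    rw [e4, norm_smul, norm_real, Real.norm_of_nonneg (sq_nonneg _)]
    have := norm_sub_le ξ (lam t ξ)
    rw [norm_lam_apply] at this
    nlinarith [norm_nonneg ξ]
  have e7 : ‖NormedSpace.exp (Complex.I • H) (dl 1) - NormedSpace.exp (Complex.I • H1) (dl (1 : G))‖
      ≤ ε / 2 := by
    rw [← ContinuousLinearMap.sub_apply]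
    refine ((ContinuousLinearMap.le_opNorm _ _).trans ?_)
    rwa [norm_dl, mul_one]
  have := norm_sub_le_norm_sub_add_norm_sub (NormedSpace.exp (Complex.I • H) (dl 1))
    (NormedSpace.exp (Complex.I • H1) (dl (1 : G))) (dl t)
  change ‖NormedSpace.exp (Complex.I • H) (dl 1) - dl t‖ ≤ ε
  linarith

end Vale.Agent.P086
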