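import Vale.Agent.P086.S2
import Vale.Agent.P086.PartLg
import Vale.Agent.P086.PartD
import Vale.Agent.P086.PartG
import Vale.Agent.P086.PartE
import Vale.Agent.P086.PartK

/-! Part S of P086: the key step. -/

namespace Vale.Agent.P086

open scoped InnerProductSpace ComplexConjugate
open FreeGroup (of map)

theorem key {κ : Type*} {a b u : κ} (hab : a ≠ b) (hau : a ≠ u) (hbu : b ≠ u) {ε : ℝ}
    (hε : 0 < ε) : ∃ (W : L2 (FreeGroup (Option κ)) →L[ℂ] L2 (FreeGroup (Option κ)))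
      (g : FreeGroup κ), Good W ∧ (∀ j : κ, ‖W (dl (of (some j))) - dl (of (some j))‖ ≤ ε) ∧
        ‖W (dl (map some g)) - dl (of none)‖ ≤ ε := by
  have hη : 0 < ε / 4 := by positivity
  have ne : ∀ {x y : κ}, x ≠ y → (some x : Option κ) ≠ some y := fun h h' => h (Option.some.inj h')
  have nn : ∀ x : κ, (none : Option κ) ≠ some x := fun x => (Option.some_ne_none x).symm
  obtain ⟨H, hH, hHP, hlog⟩ := exists_log (of none : FreeGroup (Option κ)) (S.of_pow_ne _) hη
  obtain ⟨n, h, hs, hc, hh1, hh2⟩ := exists_h (ne hab) (ne hau) (ne hbu) (nn a).symm (nn b).symm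
    (nn u) H hH hHP hη
  obtain ⟨δ, hδ, hu, h0⟩ := exists_der (some u) h
  obtain ⟨C, hC, hg⟩ := der_growth hδ h0
  obtain ⟨r, W, hr, hW, hK⟩ := flow hδ (der_star hδ hu h0 hs) (der_trace (nn u) hδ hu h0 hc) hC hg
  obtain ⟨V, hV, v1, v2, v3⟩ := S.mid hr hW hK hH (S.der_Pw hδ (h0 none (nn u)) hHP)
    (der_gg (ne hau) (ne hbu) hδ hu h0 n) hu hη hh1 hh2 hlog
  have eg : map some (gg (of a) (of b) (of u) n) =
      gg (of (some a)) (of (some b)) (of (some u)) n := S.map_gg _ _ _ _ _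
  obtain ⟨θ, θ1, θ2⟩ := S.exists_aut (gg (of a) (of b) (of u) n)
  obtain ⟨U, hU, tr1⟩ := S.twist hV θ
  refine ⟨U, gg (of a) (of b) (of u) n, hU, fun j => ?_, ?_⟩
  · have := tr1 (of (some j)) (of (some j))
    rw [θ1] at this
    rw [this]
    by_cases hj : j = u
    · rw [hj]
      linarith
    · rw [v2 _ (h0 _ (ne hj)), sub_self, norm_zero]
      exact hε.le
  · rw [← θ2, tr1, eg]
    linarith

end Vale.Agent.P086
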