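import Vale.Agent.P086.Basic

/-! Blueprint for P086 (free group factors).  Never imported by final files.
Each part goes to `Vale/Agent/P086/Part<X>.lean`, namespace `Vale.Agent.P086`, same statements
(helper lemmas in a sub namespace).  All parts are independent given the stubs. -/

namespace Vale.Agent.P086.Stub

open scoped InnerProductSpace ComplexConjugate
open FreeGroup

section der
variable {ι : Type*}

/-! ## Part D (file PartD): the derivation -/

/-- `lam` is linearly independent (apply to `dl 1`), so `MonoidAlgebra.lift` is a bijection onto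
`P` (or: `Basis.mk` of `lp'`, define the linear map on the basis).  Values on group elements:
`FreeGroup.lift` into the units of `TrivSqZeroExt (P G) (P G)`, or the cocycle c with
c (v w) = c v + v c(w) v⁻¹, `δ w = c w * w`. -/
theorem exists_der (u : ι) (h : P (FreeGroup ι)) : ∃ δ : P (FreeGroup ι) →ₗ[ℂ] P (FreeGroup ι),
    IsDer δ ∧ δ (lp' (of u)) = Complex.I • h * lp' (of u) ∧
      ∀ j, j ≠ u → δ (lp' (of j)) = 0 := sorry

/-- c w = δ w * w⁻¹ is skew adjoint (induction on w), so star (δ w) = - w⁻¹ c w = δ w⁻¹. -/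
theorem der_star {u : ι} {h : P (FreeGroup ι)} {δ : P (FreeGroup ι) →ₗ[ℂ] P (FreeGroup ι)}
    (hδ : IsDer δ) (hu : δ (lp' (of u)) = Complex.I • h * lp' (of u))
    (h0 : ∀ j, j ≠ u → δ (lp' (of j)) = 0) (hs : star h = h) (x : P (FreeGroup ι)) :
    δ (star x) = star (δ x) := sorry

/-- c w lies in `Cj t` (induction on w, `Cj` is invariant under conjugation).  If w is not of the
form b t^n b⁻¹ then tr (y * w) = 0 for all y in `Cj t`.  If w = b t^n b⁻¹ then
δ w = c b * w - w * c b has trace 0 (tr (x * lam g) = tr (lam g * x) for x in `L`, `apply_dl`). -/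
theorem der_trace {u t : ι} (hut : t ≠ u) {h : P (FreeGroup ι)}
    {δ : P (FreeGroup ι) →ₗ[ℂ] P (FreeGroup ι)}
    (hδ : IsDer δ) (hu : δ (lp' (of u)) = Complex.I • h * lp' (of u))
    (h0 : ∀ j, j ≠ u → δ (lp' (of j)) = 0)
    (hc : (h : L2 (FreeGroup ι) →L[ℂ] L2 (FreeGroup ι)) ∈ Cj (of t)) (x : P (FreeGroup ι)) :
    tr (δ x : L2 (FreeGroup ι) →L[ℂ] L2 (FreeGroup ι)) = 0 := sorry

/-- δ of a word in a, b vanishes; Leibniz and induction on n. -/
theorem der_gg {u a b : ι} (hau : a ≠ u) (hbu : b ≠ u) {h : P (FreeGroup ι)}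
    {δ : P (FreeGroup ι) →ₗ[ℂ] P (FreeGroup ι)}
    (hδ : IsDer δ) (hu : δ (lp' (of u)) = Complex.I • h * lp' (of u))
    (h0 : ∀ j, j ≠ u → δ (lp' (of j)) = 0) (n : ℕ) :
    δ (lp' (gg (of a) (of b) (of u) n)) = Complex.I • (∑ k ∈ Finset.range n,
      lp' (pp (of a) (of b) (of u) k) * h * lp' (pp (of a) (of b) (of u) k)⁻¹) *
        lp' (gg (of a) (of b) (of u) n) := sorry

/-! ## Part G (file PartG): growth -/

/-- Inductive predicate Bd D c x: generated by a • lp' (mk l) with l.length ≤ D (c = |a|), sums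
(c adds), monotone in c.  Bd D c x gives |x| ≤ c; every x has some Bd (monotone in D, `mem_P`);
multiplying by a word of length e shifts D by e.  With Bd d K (δ letter) for all letters
(δ u⁻¹ = - u⁻¹ δ u u⁻¹): Bd (len + d) (len * K) (δ (mk l)), so δ maps Bd D c to Bd (D+d) (D K c);
|δ^n (of j)| ≤ K^n ∏ (1 + k d) ≤ (K (d+1))^n n!. -/
theorem der_growth {u : ι} {δ : P (FreeGroup ι) →ₗ[ℂ] P (FreeGroup ι)}
    (hδ : IsDer δ) (h0 : ∀ j, j ≠ u → δ (lp' (of j)) = 0) :
    ∃ C : ℝ, 0 < C ∧ ∀ (j : ι) (n : ℕ), ‖(δ ^ n) (lp' (of j))‖ ≤ C ^ n * n.factorial := sorry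

/-! ## Part E (file PartE): the flow -/

/-- r = 1/(4C).  A = {x | Summable (2r)^n/n! |δ^n x|} is a star subalgebra (Leibniz formula
δ^n (x y) = sum choose δ^k x δ^(n-k) y, `summable_norm_sum_mul_antidiagonal_of_summable_norm`),
contains the generators, so A = P.  α s x = tsum s^n/n! δ^n x in B(L2), lies in `L`, linear,
multiplicative, star preserving, tr (α x) = tr x.  So α(w) (dl 1) is orthonormal,
`exists_isometry` gives W s with W s (x (dl 1)) = α s x (dl 1), W s * x = α s x * W s.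
W s (W (-s) (dl w)) = dl w (sum over antidiagonals, (s - s)^N), so W s is onto, unitary. -/
theorem flow {δ : P (FreeGroup ι) →ₗ[ℂ] P (FreeGroup ι)} (hδ : IsDer δ)
    (hs : ∀ x, δ (star x) = star (δ x))
    (ht : ∀ x, tr (δ x : L2 (FreeGroup ι) →L[ℂ] L2 (FreeGroup ι)) = 0) {C : ℝ} (hC : 0 < C)
    (hg : ∀ (j : ι) (n : ℕ), ‖(δ ^ n) (lp' (of j))‖ ≤ C ^ n * n.factorial) :
    ∃ (r : ℝ) (W : ℝ → L2 (FreeGroup ι) →L[ℂ] L2 (FreeGroup ι)), 0 < r ∧
      (∀ s, 0 ≤ s → s ≤ r → Good (W s) ∧ ∀ x : P (FreeGroup ι), δ x = 0 → W s * x = x * W s) ∧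
      ∀ w : FreeGroup ι, ∃ K : ℝ, ∀ s, 0 ≤ s → s ≤ r →
        ‖W s (dl w) - dl w - (s : ℂ) • (δ (lp' w) : L2 (FreeGroup ι) →L[ℂ] L2 (FreeGroup ι))
          (dl 1)‖ ≤ K * s ^ 2 := sorry

/-! ## Part K (file PartK): the approximate inverse -/

/-- H = c + H0 with c real, H0 in the span of t^n, n ≠ 0.  Ping-pong: φ : FreeGroup ι → Perm
(FreeGroup ℤ × ℤ), a acts by the shift `FreeGroup.map (· + 1)`, b by left multiplication by of 0,
t by (ω, z) ↦ (ω, z + if ω = 1 then 1 else 0), all other generators trivially; so p k acts by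
left multiplication by `of k`.  loc x ω: x fixes (ω', z) iff ω' ≠ ω.  loc (t^n) 1, and
loc x ω → loc (p k x p k⁻¹) (of k * ω).  X± j = operators in the span of lam x with loc x ω,
ω in `startsWith (j, ±)`; X0: ω = 1; images under (· (dl 1)) are orthogonal.
v j = conjugation by p j (isometric for |· (dl 1)|).  e i = v i⁻¹ H0,
ζ ξ j = v j (sum_(i ≠ j) ξ i), Ψ ξ i = -(L-1)⁻¹ v i⁻¹ (sum_(j ≠ i) ζ ξ j),
A 0 = 0, A (n+1) = (n+1) e + Ψ (A n), B 0 = 0, B (n+1) = e + Ψ (B n), A (n+1) - A n = B (n+1).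
|A n i|^2 ≤ n^3 |H0|^2, |B n i|^2 = n |H0|^2,
sum_j v j (sum_i A n i) = L n H0 + sum_j ζ (B n) j.  h = (nL)⁻¹ sum_i A n i + c/L:
|h - c/L|^2 ≤ n |H0|^2 / L, error^2 ≤ |H0|^2 / n. -/
theorem exists_h {a b u t : ι} (hab : a ≠ b) (hau : a ≠ u) (hbu : b ≠ u) (hat : a ≠ t)
    (hbt : b ≠ t) (hut : t ≠ u) (H : P (FreeGroup ι)) (hs : star H = H)
    (hH : (H : L2 (FreeGroup ι) →L[ℂ] L2 (FreeGroup ι)) ∈ Pw (of t)) {ε : ℝ} (hε : 0 < ε) :
    ∃ (n : ℕ) (h : P (FreeGroup ι)), star h = h ∧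
      (h : L2 (FreeGroup ι) →L[ℂ] L2 (FreeGroup ι)) ∈ Cj (of t) ∧
      ‖(h : L2 (FreeGroup ι) →L[ℂ] L2 (FreeGroup ι)) (dl 1)‖ ≤ ε ∧
      ‖((∑ k ∈ Finset.range n, lp' (pp (of a) (of b) (of u) k) * h *
        lp' (pp (of a) (of b) (of u) k)⁻¹ - H : P (FreeGroup ι)) :
          L2 (FreeGroup ι) →L[ℂ] L2 (FreeGroup ι)) (dl 1)‖ ≤ ε := sorry

end der

/-! ## Part Lg (file PartLg): logarithm -/

/-- T = lam t, 0 < r < 1, V = (1 + r T) (1 + r T*)⁻¹ is unitary, V + 1 is invertible, so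
V = exp (i H1) with H1 = `Unitary.argSelfAdjoint` in the closure of the star algebra `Pw t`.
(V - T) (1 + r T*) = (1 - r)(1 - T); ξ = (1 + r T*)⁻¹ (dl 1) has |ξ|^2 = 1/(1 - r^2)
(geometric series, dl 1 is orthogonal to T* ξ).  Approximate H1 in norm, take the real part. -/
theorem exists_log {G : Type*} [Group G] (t : G) (ht : ∀ n : ℕ, t ^ (n + 1) ≠ 1) {ε : ℝ}
    (hε : 0 < ε) : ∃ H : P G, star H = H ∧ (H : L2 G →L[ℂ] L2 G) ∈ Pw t ∧
      ‖NormedSpace.exp (Complex.I • (H : L2 G →L[ℂ] L2 G)) (dl 1) - dl t‖ ≤ ε := sorry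

/-! ## Part S (file PartS): the key step -/

/-- ι = Option κ, t = none.  H from `exists_log`, h, n from `exists_h`, δ, W from D, G, E;
s = 1/m.  W s commutes with H (δ vanishes on `Pw t`), so with E = exp (i s H); E^m = exp (i H),
|W^m (dl g) - E^m (dl g)| ≤ m |W (dl g) - E (dl g)|, |W^m (dl u) - dl u| ≤ m |W (dl u) - dl u|.
Finally multiply by `pull` of the automorphism t ↦ t g⁻¹ (g = map some g0). -/
theorem key {κ : Type*} {a b u : κ} (hab : a ≠ b) (hau : a ≠ u) (hbu : b ≠ u) {ε : ℝ}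
    (hε : 0 < ε) : ∃ (W : L2 (FreeGroup (Option κ)) →L[ℂ] L2 (FreeGroup (Option κ)))
      (g : FreeGroup κ), Good W ∧ (∀ j : κ, ‖W (dl (of (some j))) - dl (of (some j))‖ ≤ ε) ∧
        ‖W (dl (map some g)) - dl (of none)‖ ≤ ε := sorry

/-! ## Part F (file PartF): the limit -/

/-- N = V (P G) V* is a star subalgebra of `L G'` with N (dl 1) dense.  If T commutes with N,
z in G', x, y in N, q in N with q (dl 1) close to dl z: (lam z - q) x (dl 1) and
(lam z - q)* y (dl 1) are small (`norm_mul_dl`, `norm_star_dl`), so T commutes with lam z. -/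
theorem iso_of {G G' : Type*} [Group G] [Group G'] (V : L2 G ≃ₗᵢ[ℂ] L2 G') (h1 : V (dl 1) = dl 1)
    (hm : ∀ g : G, ∃ x ∈ L G', ∀ ξ, V (lam g ξ) = x (V ξ)) : Nonempty (L G ≃⋆ₐ[ℂ] L G') := sorry

/-- Two homomorphisms into the unitary group of `L` which are ε close on generators in the norm
|· (dl 1)| are (length w) ε close at w.  Apply to w ↦ W lam (map some w) W* versus
lam (map some w), and to w ↦ W lam (map some (θ w)) W* versus lam w (θ none = g, θ (some j) = of j).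
Choose W 1, W 2, ... recursively, U n = W 1 * ... * W n, J = the isometry dl w ↦ dl (map some w);
U n ∘ J converges strongly to an isometry V, whose range is dense: at stage n approximate
star (U (n-1)) (dl z), z the n-th target, by a finite combination. -/
theorem limit {κ : Type*} [Countable κ]
    (hk : ∀ ε : ℝ, 0 < ε → ∃ (W : L2 (FreeGroup (Option κ)) →L[ℂ] L2 (FreeGroup (Option κ)))
      (g : FreeGroup κ), Good W ∧ (∀ j : κ, ‖W (dl (of (some j))) - dl (of (some j))‖ ≤ ε) ∧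
        ‖W (dl (map some g)) - dl (of none)‖ ≤ ε) :
    ∃ V : L2 (FreeGroup κ) ≃ₗᵢ[ℂ] L2 (FreeGroup (Option κ)), V (dl 1) = dl 1 ∧
      ∀ g : FreeGroup κ, ∃ x ∈ L (FreeGroup (Option κ)), ∀ ξ, V (lam g ξ) = x (V ξ) := sorry

end Vale.Agent.P086.Stub
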