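import Vale.Agent.P086.Basic

/-! Lemmas for part S of P086. -/

namespace Vale.Agent.P086.S

open scoped InnerProductSpace ComplexConjugate Topology
open Complex Filter
open FreeGroup (of lift_apply_of ext_hom)

section hilbert
variable {E : Type*} [NormedAddCommGroup E] [InnerProductSpace ℂ E] [CompleteSpace E]

lemma iter {W V : E →L[ℂ] E} (hW : W ∈ unitary (E →L[ℂ] E)) (hV : V ∈ unitary (E →L[ℂ] E))
    (hc : W * V = V * W) (v : E) (m : ℕ) : ‖(W ^ m) v - (V ^ m) v‖ ≤ m * ‖W v - V v‖ := by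
  induction m with
  | zero => simp
  | succ m ih =>
    have e : (W ^ (m + 1)) v - (V ^ (m + 1)) v =
        (W ^ m) (W v - V v) + V ((W ^ m) v - (V ^ m) v) := by
      have h1 : W ^ m * V = V * W ^ m := (Commute.pow_left hc m).eq
      have h2 : (W ^ m) (V v) = V ((W ^ m) v) := congrArg (fun T : E →L[ℂ] E => T v) h1
      rw [pow_succ W, pow_succ' V, map_sub, map_sub, h2, ContinuousLinearMap.mul_apply,
        ContinuousLinearMap.mul_apply]
      abel
    rw [e]
    refine (norm_add_le _ _).trans ?_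
    rw [ContinuousLinearMap.norm_map_of_mem_unitary hV,
      ContinuousLinearMap.norm_map_of_mem_unitary (pow_mem hW m)]
    rw [Nat.cast_succ]
    linarith

lemma flowpow {W : ℝ → E →L[ℂ] E} {r : ℝ} (hr : 0 < r) {H : E →L[ℂ] E} (hH : star H = H)
    (hW : ∀ s, 0 ≤ s → s ≤ r → W s ∈ unitary (E →L[ℂ] E) ∧ W s * H = H * W s) {v d : E}
    (hv : ‖v‖ = 1) {K : ℝ} (hK : ∀ s, 0 ≤ s → s ≤ r → ‖W s v - v - (s : ℂ) • d‖ ≤ K * s ^ 2)
    {η : ℝ} (hη : 0 < η) (hd : ‖d - I • H v‖ ≤ η) :
    ∀ᶠ m : ℕ in atTop, ‖(W (m : ℝ)⁻¹ ^ m) v - NormedSpace.exp (I • H) v‖ ≤ 3 * η := by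
  let +nondep : NormedAlgebra ℚ (E →L[ℂ] E) := NormedAlgebra.restrictScalars ℚ ℂ _
  have hD := (hasDerivAt_exp_smul_const (𝕂 := ℝ) (I • H) 0).isLittleO.def hη
  have lim : Tendsto (fun m : ℕ => (m : ℝ)⁻¹) atTop (𝓝 0) := tendsto_inv_atTop_nhds_zero_nat
  have lim2 : Tendsto (fun m : ℕ => K * (m : ℝ)⁻¹) atTop (𝓝 (K * 0)) := lim.const_mul K
  filter_upwards [lim.eventually hD, lim.eventually (ge_mem_nhds hr),
    lim2.eventually (ge_mem_nhds (by rwa [mul_zero] : K * 0 < η)), eventually_gt_atTop 0]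
    with m h1 h2 h3 h4
  have m0 : (0 : ℝ) < m := by exact_mod_cast h4
  obtain ⟨s, hs⟩ : ∃ s : ℝ, s = (m : ℝ)⁻¹ := ⟨_, rfl⟩
  rw [← hs] at h1 h2 h3 ⊢
  have s0 : 0 < s := by rw [hs]; positivity
  have ms : m * s = 1 := by rw [hs]; field_simp
  simp only [zero_smul, NormedSpace.exp_zero, sub_zero, one_mul, Real.norm_of_nonneg s0.le] at h1
  obtain ⟨V, hV⟩ : ∃ V, V = NormedSpace.exp (s • (I • H)) := ⟨_, rfl⟩
  rw [← hV] at h1
  have uV : V ∈ unitary (E →L[ℂ] E) := by
    rw [hV, smul_comm]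
    exact (selfAdjoint.expUnitary ⟨s • H, by
      rw [selfAdjoint.mem_iff, star_smul, star_trivial, hH]⟩).2
  have cV : W s * V = V * W s := by
    have : Commute (W s) H := (hW s s0.le h2).2
    rw [hV]
    exact ((this.smul_right I).smul_right s).exp_right.eq
  have pV : V ^ m = NormedSpace.exp (I • H) := by
    rw [hV, ← NormedSpace.exp_nsmul, ← Nat.cast_smul_eq_nsmul ℝ, smul_smul, ms, one_smul]
  rw [← pV]
  refine (iter (hW s s0.le h2).1 uV cV v m).trans ?_
  have e : W s v - V v = (W s v - v - (s : ℂ) • d) + (s : ℂ) • (d - I • H v) -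
      (V - 1 - s • (I • H)) v := by
    simp only [ContinuousLinearMap.sub_apply, ContinuousLinearMap.one_apply,
      ContinuousLinearMap.smul_apply, coe_smul, smul_sub]
    abel
  have k1 := hK s s0.le h2
  have k2 : ‖(s : ℂ) • (d - I • H v)‖ ≤ s * η := by
    rw [norm_smul, norm_real, Real.norm_of_nonneg s0.le]
    exact mul_le_mul_of_nonneg_left hd s0.le
  have k3 : ‖(V - 1 - s • (I • H)) v‖ ≤ η * s := by
    refine (ContinuousLinearMap.le_opNorm _ _).trans ?_
    rwa [hv, mul_one]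
  have k4 : ‖W s v - V v‖ ≤ 3 * η * s := by
    rw [e]
    refine (norm_sub_le _ _).trans ?_
    have := norm_add_le (W s v - v - (s : ℂ) • d) ((s : ℂ) • (d - I • H v))
    nlinarith
  calc _ ≤ m * (3 * η * s) := mul_le_mul_of_nonneg_left k4 m0.le
    _ = 3 * η * (m * s) := by ring
    _ = 3 * η := by rw [ms, mul_one]

end hilbert

section ring
variable {R : Type*} [Ring R]

lemma conj_comm {W T x : R} {W' : R} (h1 : W' * W = 1) (h2 : W * W' = 1)
    (h : W' * T * W * x = x * (W' * T * W)) : T * (W * x * W') = W * x * W' * T := by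
  calc T * (W * x * W') = (W * W') * T * (W * x * W') := by rw [h2, one_mul]
    _ = W * (W' * T * W * x) * W' := by simp only [mul_assoc]
    _ = W * x * W' * T * (W * W') := by rw [h]; simp only [mul_assoc]
    _ = _ := by rw [h2, mul_one]

end ring

variable {G : Type*} [Group G]

lemma good_conj {W : L2 G →L[ℂ] L2 G} (hW : Good W) {x : L2 G →L[ℂ] L2 G} (hx : x ∈ L G) :
    W * x * star W ∈ L G := by
  refine mem_L.2 fun T hT => conj_comm hW.unit.1 hW.unit.2 (mem_L.1 hx _ fun g => ?_)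
  have h := mem_L.1 (hW.mem g) T hT
  have := conj_comm (W := star W) (W' := W) (T := lam g) (x := T) hW.unit.2 hW.unit.1 h.symm
  exact this

lemma good_mul {W V : L2 G →L[ℂ] L2 G} (hW : Good W) (hV : Good V) : Good (W * V) := by
  refine ⟨mul_mem hW.unit hV.unit, ?_, fun g => ?_⟩
  · rw [ContinuousLinearMap.mul_apply, hV.fix, hW.fix]
  · have := good_conj hW (hV.mem g)
    rw [star_mul]
    simpa only [mul_assoc] using this

lemma good_one : Good (1 : L2 G →L[ℂ] L2 G) :=
  ⟨one_mem _, rfl, fun g => by rw [star_one, one_mul, mul_one]; exact lam_mem g⟩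

lemma good_pow {W : L2 G →L[ℂ] L2 G} (hW : Good W) (m : ℕ) : Good (W ^ m) := by
  induction m with
  | zero => exact good_one
  | succ m ih => rw [pow_succ]; exact good_mul ih hW

lemma good_aut (θ : G ≃* G) : ∃ U : L2 G →L[ℂ] L2 G, Good U ∧ ∀ w, U (dl w) = dl (θ w) := by
  have h1 : ∀ w, pull θ.toEquiv.symm (dl w) = dl (θ w) := fun w => pull_dl _ _
  have h2 : ∀ w, star (pull θ.toEquiv.symm) (dl w) = dl (θ.symm w) := fun w => by
    rw [star_pull]; exact pull_dl _ _
  refine ⟨pull θ.toEquiv.symm, ⟨⟨ext_dl fun a => ?_, ext_dl fun a => ?_⟩, ?_, fun g => ?_⟩, h1⟩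
  · rw [ContinuousLinearMap.mul_apply, h1, h2, θ.symm_apply_apply]; rfl
  · rw [ContinuousLinearMap.mul_apply, h2, h1, θ.apply_symm_apply]; rfl
  · rw [h1, map_one]
  · have : pull θ.toEquiv.symm * lam g * star (pull θ.toEquiv.symm) = lam (θ g) :=
      ext_dl fun a => by
        rw [ContinuousLinearMap.mul_apply, ContinuousLinearMap.mul_apply, h2, lam_dl, h1, lam_dl,
          map_mul, θ.apply_symm_apply]
    rw [this]
    exact lam_mem _

lemma lp_mul (g h : G) : lp' (g * h) = lp' g * lp' h := Subtype.ext (lam_mul g h)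

lemma lp_one : lp' (1 : G) = 1 := Subtype.ext lam_one

lemma der_aux {R : Type*} [Ring R] (δ : R →+ R) (hδ : ∀ x y, δ (x * y) = δ x * y + x * δ y)
    (f : G →* R) {t : G} (ht : δ (f t) = 0) (n : ℤ) : δ (f (t ^ n)) = 0 := by
  have h1 : δ 1 = 0 := by
    have := hδ 1 1
    rw [mul_one, mul_one, one_mul] at this
    exact left_eq_add.1 this
  let K : Subgroup G :=
    { carrier := {g | δ (f g) = 0}
      one_mem' := by simp [h1]
      mul_mem' := by
        intro a b ha hb
        simp only [Set.mem_setOf_eq] at ha hb ⊢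
        rw [map_mul, hδ, ha, hb, zero_mul, mul_zero, add_zero]
      inv_mem' := by
        intro a ha
        simp only [Set.mem_setOf_eq] at ha ⊢
        have := hδ (f a⁻¹) (f a)
        rw [← map_mul, inv_mul_cancel, map_one, h1, ha, mul_zero, add_zero] at this
        calc δ (f a⁻¹) = δ (f a⁻¹) * f a * f a⁻¹ := by
              rw [mul_assoc, ← map_mul, mul_inv_cancel, map_one, mul_one]
          _ = 0 := by rw [← this, zero_mul] }
  exact K.zpow_mem (x := t) ht n

lemma der_Pw {δ : P G →ₗ[ℂ] P G} (hδ : IsDer δ) {t : G} (ht : δ (lp' t) = 0) {x : P G}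
    (hx : (x : L2 G →L[ℂ] L2 G) ∈ Pw t) : δ x = 0 := by
  have key : ∀ y ∈ Pw t, ∃ z : P G, (z : L2 G →L[ℂ] L2 G) = y ∧ δ z = 0 := by
    intro y hy
    induction hy using Submodule.span_induction with
    | mem y hy =>
      obtain ⟨n, rfl⟩ := hy
      exact ⟨lp' (t ^ n), rfl,
        der_aux δ.toAddMonoidHom hδ ⟨⟨lp', lp_one⟩, lp_mul⟩ ht n⟩
    | zero => exact ⟨0, rfl, map_zero _⟩
    | add y y' _ _ hy hy' =>
      obtain ⟨z, rfl, hz⟩ := hy
      obtain ⟨z', rfl, hz'⟩ := hy'
      exact ⟨z + z', rfl, by rw [map_add, hz, hz', add_zero]⟩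
    | smul c y _ hy =>
      obtain ⟨z, rfl, hz⟩ := hy
      exact ⟨c • z, rfl, by rw [map_smul, hz, smul_zero]⟩
  obtain ⟨z, h1, h2⟩ := key _ hx
  rwa [← Subtype.ext h1]

lemma map_gg {G' : Type*} [Group G'] (f : G →* G') (a b u : G) (n : ℕ) :
    f (gg a b u n) = gg (f a) (f b) (f u) n := by
  induction n with
  | zero => exact map_one f
  | succ n ih => simp only [gg, yy, map_mul, map_inv, map_pow, ih]

lemma of_pow_ne {ι : Type*} (t : ι) (n : ℕ) : (of t : FreeGroup ι) ^ (n + 1) ≠ 1 := by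
  intro h
  have := congrArg (FreeGroup.lift fun _ : ι => Multiplicative.ofAdd (1 : ℤ)) h
  rw [map_pow, lift_apply_of, ← ofAdd_nsmul] at this
  have h2 := Multiplicative.ofAdd.injective (this.trans (map_one _))
  simp only [nsmul_eq_mul, mul_one] at h2
  have h3 : ((n + 1 : ℕ) : ℤ) = 0 := h2
  omega

lemma exists_aut {κ : Type*} (g : FreeGroup κ) :
    ∃ θ : FreeGroup (Option κ) ≃* FreeGroup (Option κ), (∀ j, θ (of (some j)) = of (some j)) ∧
      θ (of none * FreeGroup.map some g) = of none := by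
  let f : FreeGroup κ → FreeGroup (Option κ) →* FreeGroup (Option κ) := fun w =>
    FreeGroup.lift fun o => o.elim (of none * FreeGroup.map some w) fun j => of (some j)
  have f1 : ∀ w j, f w (of (some j)) = of (some j) := fun w j => lift_apply_of
  have f2 : ∀ w, f w (of none) = of none * FreeGroup.map some w := fun w => lift_apply_of
  have f3 : ∀ w v, f w (FreeGroup.map some v) = FreeGroup.map some v := fun w v => by
    have : (f w).comp (FreeGroup.map some) = FreeGroup.map some := ext_hom _ _ fun j => by simp [f1]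
    exact DFunLike.congr_fun this v
  have f4 : ∀ w, (f w).comp (f w⁻¹) = MonoidHom.id _ := fun w => ext_hom _ _ fun o => by
    cases o with
    | none => simp [f2, f3]
    | some j => simp [f1]
  refine ⟨MonoidHom.toMulEquiv (f g⁻¹) (f g) (f4 g) (by have := f4 g⁻¹; rwa [inv_inv] at this),
    f1 g⁻¹, ?_⟩
  change f g⁻¹ _ = _
  simp [f2, f3]

end Vale.Agent.P086.S
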