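import Vale.Agent.P086.S1

/-! More lemmas for part S of P086. -/

namespace Vale.Agent.P086.S

open scoped InnerProductSpace ComplexConjugate

variable {G : Type*} [Group G]

lemma app (x : P G) (w : G) : ((Complex.I • x * lp' w : P G) : L2 G →L[ℂ] L2 G) (dl 1) =
    Complex.I • (x : L2 G →L[ℂ] L2 G) (dl w) := by
  change Complex.I • (x : L2 G →L[ℂ] L2 G) (lam w (dl 1)) = _
  rw [lam_dl, mul_one]

lemma near1 (Z H : P G) (w : G) : ‖((Complex.I • Z * lp' w : P G) : L2 G →L[ℂ] L2 G) (dl 1) -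
    Complex.I • (H : L2 G →L[ℂ] L2 G) (dl w)‖ = ‖((Z - H : P G) : L2 G →L[ℂ] L2 G) (dl 1)‖ := by
  rw [app, ← smul_sub, norm_smul, Complex.norm_I, one_mul, ← ContinuousLinearMap.sub_apply]
  exact norm_apply_dl (P_le (Z - H).2) w

lemma near2 (h : P G) (w : G) : ‖((Complex.I • h * lp' w : P G) : L2 G →L[ℂ] L2 G) (dl 1) -
    Complex.I • (0 : L2 G →L[ℂ] L2 G) (dl w)‖ = ‖(h : L2 G →L[ℂ] L2 G) (dl 1)‖ := by
  rw [app, ContinuousLinearMap.zero_apply, smul_zero, sub_zero, norm_smul, Complex.norm_I, one_mul]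
  exact norm_apply_dl (P_le h.2) w

lemma near3 {H : L2 G →L[ℂ] L2 G} (hH : H ∈ L G) (t w : G) :
    ‖NormedSpace.exp (Complex.I • H) (dl w) - dl (t * w)‖ =
      ‖NormedSpace.exp (Complex.I • H) (dl 1) - dl t‖ := by
  have hL : NormedSpace.exp (Complex.I • H) - lam t ∈ L G := by
    let +nondep : NormedAlgebra ℚ (L2 G →L[ℂ] L2 G) := NormedAlgebra.restrictScalars ℚ ℂ _
    exact sub_mem (NormedSpace.exp_mem (R := ℂ) isClosed_L (SMulMemClass.smul_mem _ hH))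
      (lam_mem _)
  have e3 := norm_apply_dl hL w
  rwa [ContinuousLinearMap.sub_apply, ContinuousLinearMap.sub_apply, lam_dl, lam_dl, mul_one] at e3

lemma fix_pow {W : L2 G →L[ℂ] L2 G} (hG : Good W) {x : G} (c : W * lam x = lam x * W) (m : ℕ) :
    (W ^ m) (dl x) = dl x := by
  have := congrArg (fun T : L2 G →L[ℂ] L2 G => T (dl 1)) (Commute.pow_left c m).eq
  simpa only [ContinuousLinearMap.mul_apply, (good_pow hG m).fix, lam_dl, mul_one] using this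

lemma mid0 {r : ℝ} {W : ℝ → L2 G →L[ℂ] L2 G} (hr : 0 < r) {H : L2 G →L[ℂ] L2 G}
    (hH : star H = H) (hL : H ∈ L G) (hW : ∀ s, 0 ≤ s → s ≤ r → Good (W s) ∧ W s * H = H * W s)
    {g t u : G} {K1 K2 : ℝ} {d1 d2 : L2 G}
    (hK1 : ∀ s, 0 ≤ s → s ≤ r → ‖W s (dl g) - dl g - (s : ℂ) • d1‖ ≤ K1 * s ^ 2)
    (hK2 : ∀ s, 0 ≤ s → s ≤ r → ‖W s (dl u) - dl u - (s : ℂ) • d2‖ ≤ K2 * s ^ 2) {η : ℝ}
    (hη : 0 < η) (h1 : ‖d2 - Complex.I • (0 : L2 G →L[ℂ] L2 G) (dl u)‖ ≤ η)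
    (h2 : ‖d1 - Complex.I • H (dl g)‖ ≤ η)
    (h3 : ‖NormedSpace.exp (Complex.I • H) (dl 1) - dl t‖ ≤ η) :
    ∃ (s : ℝ) (m : ℕ), 0 ≤ s ∧ s ≤ r ∧ ‖(W s ^ m) (dl u) - dl u‖ ≤ 3 * η ∧
      ‖(W s ^ m) (dl g) - dl (t * g)‖ ≤ 4 * η := by
  have e1 := flowpow hr hH
    (fun s s0 s1 => ⟨(hW s s0 s1).1.unit, (hW s s0 s1).2⟩) (norm_dl g) hK1 hη h2
  have e2 := flowpow hr (star_zero _)
    (fun s s0 s1 => ⟨(hW s s0 s1).1.unit, (mul_zero _).trans (zero_mul _).symm⟩) (norm_dl u) hK2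
    hη h1
  obtain ⟨m, m1, m2, m3⟩ := (e1.and (e2.and
    (tendsto_inv_atTop_nhds_zero_nat.eventually (ge_mem_nhds hr)))).exists
  refine ⟨(m : ℝ)⁻¹, m, by positivity, m3, ?_, ?_⟩
  · rwa [smul_zero, NormedSpace.exp_zero, ContinuousLinearMap.one_apply] at m2
  · refine (norm_sub_le_norm_sub_add_norm_sub _ _ _).trans
      ((add_le_add m1 ((near3 hL t g).trans_le h3)).trans ?_)
    linarith

lemma mid {δ : P G →ₗ[ℂ] P G} {r : ℝ} {W : ℝ → L2 G →L[ℂ] L2 G} (hr : 0 < r)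
    (hW : ∀ s, 0 ≤ s → s ≤ r → Good (W s) ∧ ∀ x : P G, δ x = 0 → W s * x = x * W s)
    (hK : ∀ w : G, ∃ K : ℝ, ∀ s, 0 ≤ s → s ≤ r →
      ‖W s (dl w) - dl w - (s : ℂ) • (δ (lp' w) : L2 G →L[ℂ] L2 G) (dl 1)‖ ≤ K * s ^ 2)
    {H Z h : P G} (hH : star H = H) (hδH : δ H = 0) {g t u : G}
    (hg : δ (lp' g) = Complex.I • Z * lp' g) (hu : δ (lp' u) = Complex.I • h * lp' u) {η : ℝ}
    (hη : 0 < η) (h1 : ‖(h : L2 G →L[ℂ] L2 G) (dl 1)‖ ≤ η)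
    (h2 : ‖((Z - H : P G) : L2 G →L[ℂ] L2 G) (dl 1)‖ ≤ η)
    (h3 : ‖NormedSpace.exp (Complex.I • (H : L2 G →L[ℂ] L2 G)) (dl 1) - dl t‖ ≤ η) :
    ∃ V : L2 G →L[ℂ] L2 G, Good V ∧ ‖V (dl u) - dl u‖ ≤ 3 * η ∧
      (∀ x : G, δ (lp' x) = 0 → V (dl x) = dl x) ∧ ‖V (dl g) - dl (t * g)‖ ≤ 4 * η := by
  obtain ⟨K1, hK1⟩ := hK g
  obtain ⟨K2, hK2⟩ := hK u
  have hH' : star (H : L2 G →L[ℂ] L2 G) = H := congrArg Subtype.val hH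
  have a1 := (near2 h u).trans_le h1
  have a2 := (near1 Z H g).trans_le h2
  rw [← hu] at a1
  rw [← hg] at a2
  obtain ⟨s, m, s0, s1, k1, k2⟩ := mid0 hr hH' (P_le H.2)
    (fun s s0 s1 => ⟨(hW s s0 s1).1, (hW s s0 s1).2 H hδH⟩) hK1 hK2 hη a1 a2 h3
  obtain ⟨hG, hcm⟩ := hW s s0 s1
  exact ⟨W s ^ m, good_pow hG m, k1, fun x hx => fix_pow hG (hcm _ hx) m, k2⟩

lemma twist {V : L2 G →L[ℂ] L2 G} (hV : Good V) (θ : G ≃* G) : ∃ W : L2 G →L[ℂ] L2 G, Good W ∧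
    ∀ w w', ‖W (dl w) - dl (θ w')‖ = ‖V (dl w) - dl w'‖ := by
  obtain ⟨U, hU, hUd⟩ := good_aut θ
  refine ⟨U * V, good_mul hU hV, fun w w' => ?_⟩
  rw [← hUd, ContinuousLinearMap.mul_apply, ← map_sub,
    ContinuousLinearMap.norm_map_of_mem_unitary hU.unit]

end Vale.Agent.P086.S
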