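import Vale.Agent.P086.Final

/-! Transfer to an arbitrary Hilbert space with a basis indexed by the group. -/

namespace Vale.Agent.P086

lemma transfer {G H : Type*} [Group G] [NormedAddCommGroup H] [InnerProductSpace ℂ H]
    [CompleteSpace H] (b : HilbertBasis G ℂ H) (la : G → H →L[ℂ] H)
    (hla : ∀ g h, la g (b h) = b (g * h)) (M : StarSubalgebra ℂ (H →L[ℂ] H))
    (hM : (M : Set (H →L[ℂ] H)) = (Set.range la).centralizer.centralizer) :
    Nonempty (M ≃⋆ₐ[ℂ] L G) := by
  classical
  set e := b.repr.conjStarAlgEquiv with he
  have hb : ∀ h, b.repr.symm (dl h) = b h := fun h => by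
    rw [dl]; exact b.repr_symm_single h
  have hb' : ∀ h, b.repr (b h) = dl h := fun h => by rw [← hb, b.repr.apply_symm_apply]
  have hl : ∀ g, e (la g) = lam g := fun g => ext_dl fun h => by
    rw [he, LinearIsometryEquiv.conjStarAlgEquiv_apply_apply, hb, hla, hb', lam_dl]
  have key : ∀ x, x ∈ M ↔ e x ∈ L G := fun x => by
    rw [← SetLike.mem_coe, hM, mem_L, Set.mem_centralizer_iff]
    constructor
    · intro h T hT
      obtain ⟨S, rfl⟩ := EquivLike.surjective e T
      rw [← map_mul, ← map_mul, h S]
      rintro _ ⟨g, rfl⟩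
      apply EquivLike.injective e
      rw [map_mul, map_mul, hl, hT]
    · intro h T hT
      apply EquivLike.injective e
      rw [map_mul, map_mul]
      exact h _ fun g => by rw [← hl, ← map_mul, ← map_mul, hT _ ⟨g, rfl⟩]
  exact ⟨{ toFun := fun x => ⟨e x, (key x).1 x.2⟩
           invFun := fun y => ⟨e.symm y, (key _).2 (by rw [e.apply_symm_apply]; exact y.2)⟩
           left_inv := fun x => Subtype.ext (e.symm_apply_apply x)
           right_inv := fun y => Subtype.ext (e.apply_symm_apply y)
           map_mul' := fun x y => Subtype.ext (map_mul e x.1 y.1)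
           map_add' := fun x y => Subtype.ext (map_add e x.1 y.1)
           map_star' := fun x => Subtype.ext (map_star e x.1)
           map_smul' := fun c x => Subtype.ext (map_smul e c x.1) }⟩

end Vale.Agent.P086
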